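import Vale.Agent.P198.R.Defs

/-! # P198 R/Sum (helper names end with `_RSum`)
`dbl_R`: exchange the sums. `schur_R`: `sq_sum_le_card_mul_sum_sq`, `dbl_R`. `scale_R`: `exists_nat_pow_near_of_lt_one` at `s / B`.
`la_R` (length-area): for `t ∈ Ioo t₀ t₁`, `1 ≤ ∑ x ∈ S k, ρ x * 1_{J x} t` with `J x = Icc (f (π x) - ω x) (f (π x) + ω x)`; integrate in `t`:
`t₁ - t₀ ≤ ∑ x, ρ x * (2 ω x)` (`ω x ≥ 0` on `S k`, take `ξ = π x`), restrict to `ov k W`, Cauchy-Schwarz (`Finset.sum_mul_sq_le_sq_mul_sq`).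
`interp_R`: `F = ∑ φ x * U x / ∑ φ x` over `S k`, `φ x ξ = max 0 (2 C q ^ k - dist ξ (π x))`, denominator positive by `net`. -/

namespace Vale.Agent.P198
open Set Metric Filter Topology MeasureTheory
set_option linter.unusedSectionVars false
variable {G Z : Type} [Group G] [MetricSpace Z] [CompactSpace Z] [MulAction G Z]
  [ContinuousConstSMul G Z]

theorem dbl_R {α β : Type} (A : Finset α) (B : Finset β) (T : α → Finset β)
    (hT : ∀ a ∈ A, T a ⊆ B) {N : ℕ}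
    (h : ∀ b ∈ B, ∃ s : Finset α, s.card ≤ N ∧ ∀ a ∈ A, b ∈ T a → a ∈ s)
    (w : β → ℝ) (hw : ∀ b, 0 ≤ w b) : ∑ a ∈ A, ∑ b ∈ T a, w b ≤ N * ∑ b ∈ B, w b := by
  classical
  have e : ∑ a ∈ A, ∑ b ∈ T a, w b = ∑ a ∈ A, ∑ b ∈ B, if b ∈ T a then w b else 0 := by
    refine Finset.sum_congr rfl fun a ha => ?_
    rw [← Finset.sum_filter, Finset.filter_mem_eq_inter, Finset.inter_eq_right.2 (hT a ha)]
  rw [e, Finset.sum_comm, Finset.mul_sum]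
  refine Finset.sum_le_sum fun b hb => ?_
  obtain ⟨s, hs, hs'⟩ := h b hb
  rw [← Finset.sum_filter, Finset.sum_const, nsmul_eq_mul]
  refine mul_le_mul_of_nonneg_right ?_ (hw b)
  have h1 : (A.filter fun a => b ∈ T a).card ≤ N := by
    refine le_trans (Finset.card_le_card fun a ha => ?_) hs
    exact hs' a (Finset.mem_filter.1 ha).1 (Finset.mem_filter.1 ha).2
  exact_mod_cast h1

theorem schur_R {α β : Type} (A : Finset α) (B : Finset β) (T : α → Finset β)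
    (hT : ∀ a ∈ A, T a ⊆ B) {N₁ N₂ : ℕ} (h1 : ∀ a ∈ A, (T a).card ≤ N₁)
    (h2 : ∀ b ∈ B, ∃ s : Finset α, s.card ≤ N₂ ∧ ∀ a ∈ A, b ∈ T a → a ∈ s) (ρ : β → ℝ) :
    ∑ a ∈ A, (∑ b ∈ T a, ρ b) ^ 2 ≤ N₁ * N₂ * ∑ b ∈ B, ρ b ^ 2 := by
  have h3 := dbl_R A B T hT h2 (fun b => ρ b ^ 2) fun b => sq_nonneg _
  have h4 : ∑ a ∈ A, (∑ b ∈ T a, ρ b) ^ 2 ≤ N₁ * ∑ a ∈ A, ∑ b ∈ T a, ρ b ^ 2 := by
    rw [Finset.mul_sum]
    refine Finset.sum_le_sum fun a ha => le_trans sq_sum_le_card_mul_sum_sq ?_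
    refine mul_le_mul_of_nonneg_right ?_ (Finset.sum_nonneg fun b _ => sq_nonneg _)
    exact_mod_cast h1 a ha
  rw [mul_assoc]
  exact le_trans h4 (mul_le_mul_of_nonneg_left h3 (Nat.cast_nonneg _))

theorem scale_R {q s B : ℝ} (h0 : 0 < q) (h1 : q < 1) (hs : 0 < s) (hB : 1 ≤ B) (h : s ≤ B) :
    ∃ i : ℕ, q ^ i ≤ s ∧ q / B * s ≤ q ^ i := by
  have hB0 : 0 < B := by linarith
  obtain ⟨n, hn1, hn2⟩ := exists_nat_pow_near_of_lt_one (div_pos hs hB0)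
    ((div_le_one hB0).2 h) h0 h1
  refine ⟨n + 1, le_trans hn1.le (div_le_self hs.le hB), ?_⟩
  rw [pow_succ', div_mul_eq_mul_div, mul_div_assoc]
  exact mul_le_mul_of_nonneg_left hn2 h0.le

theorem GP.la_R (X : GP G Z) {k : ℕ} {f : Z → ℝ} {ω ρ : G → ℝ} {W : Set Z} {A t₀ t₁ : ℝ}
    (hω : X.Maj k X.C f ω) (h0 : ∀ x, 0 ≤ ρ x) (hW : ∀ x, ρ x ≠ 0 → X.π x ∈ W)
    (hA : ∑ x ∈ X.S k, ρ x ^ 2 ≤ A) (ht : t₀ ≤ t₁)
    (h : ∀ t ∈ Ioo t₀ t₁, ∃ L : Set Z, (∀ ξ ∈ L, f ξ = t) ∧ 1 ≤ ∑ x ∈ X.hit k L, ρ x) :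
    (t₁ - t₀) ^ 2 ≤ 4 * A * ∑ x ∈ X.ov k W, ω x ^ 2 := by
  have hω0 : ∀ x ∈ X.S k, 0 ≤ ω x := by
    intro x hx
    have hC : 0 ≤ X.C := le_trans zero_le_one X.C_ge
    have h1 := hω x (X.mem_S.1 hx) (X.π x) (by
      rw [dist_self]
      exact mul_nonneg hC (pow_nonneg X.q_pos.le k))
    exact le_trans (abs_nonneg _) h1
  have hint : ∀ x, Integrable (fun t : ℝ =>
      ρ x * (Icc (f (X.π x) - ω x) (f (X.π x) + ω x)).indicator (1 : ℝ → ℝ) t) := by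
    intro x
    refine Integrable.const_mul ?_ _
    exact (integrable_indicator_iff measurableSet_Icc).2 (integrableOn_const measure_Icc_lt_top.ne)
  have hle : (Ioo t₀ t₁).indicator (1 : ℝ → ℝ) ≤ fun t => ∑ x ∈ X.S k,
      ρ x * (Icc (f (X.π x) - ω x) (f (X.π x) + ω x)).indicator (1 : ℝ → ℝ) t := by
    intro t
    have hnn : ∀ x, 0 ≤ ρ x * (Icc (f (X.π x) - ω x) (f (X.π x) + ω x)).indicator (1 : ℝ → ℝ) t :=
      fun x => mul_nonneg (h0 x) (indicator_nonneg (fun _ _ => zero_le_one) t)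
    by_cases htm : t ∈ Ioo t₀ t₁
    · rw [indicator_of_mem htm]
      obtain ⟨L, hL, hL1⟩ := h t htm
      refine le_trans hL1 (le_trans (le_of_eq ?_) (Finset.sum_le_sum_of_subset_of_nonneg
        (s := X.hit k L) (fun x hx => X.mem_S.2 (X.mem_hit.1 hx).1) fun x _ _ => hnn x))
      refine Finset.sum_congr rfl fun x hx => ?_
      obtain ⟨hx1, ξ, hξ, hx2⟩ := X.mem_hit.1 hx
      have h2 := abs_le.1 (hω x hx1 ξ hx2)
      rw [hL ξ hξ] at h2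
      rw [indicator_of_mem (show t ∈ Icc (f (X.π x) - ω x) (f (X.π x) + ω x) from
        ⟨by linarith [h2.1], by linarith [h2.2]⟩), Pi.one_apply, mul_one]
    · rw [indicator_of_notMem htm]
      exact Finset.sum_nonneg fun x _ => hnn x
  have h3 := integral_mono ((integrable_indicator_iff measurableSet_Ioo).2
    (integrableOn_const measure_Ioo_lt_top.ne)) (integrable_finsetSum _ fun x _ => hint x) hle
  rw [integral_finsetSum _ fun x _ => hint x] at h3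
  have h4 : ∫ t, (Ioo t₀ t₁).indicator (1 : ℝ → ℝ) t = t₁ - t₀ := by
    rw [integral_indicator_one measurableSet_Ioo, Real.volume_real_Ioo_of_le ht]
  have h5 : ∑ x ∈ X.S k, ∫ t, ρ x *
      (Icc (f (X.π x) - ω x) (f (X.π x) + ω x)).indicator (1 : ℝ → ℝ) t =
      2 * ∑ x ∈ X.ov k W, ρ x * ω x := by
    rw [Finset.sum_subset (X.ov_subset k W) (fun x hx hn => ?_), Finset.mul_sum]
    · refine Finset.sum_congr rfl fun x hx => ?_
      rw [integral_const_mul, integral_indicator_one measurableSet_Icc,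
        Real.volume_real_Icc_of_le (by linarith [hω0 x hx])]
      ring
    · have h6 : ρ x = 0 := by
        by_contra hne
        exact hn (X.mem_ov.2 ⟨X.mem_S.1 hx, hW x hne⟩)
      rw [h6, zero_mul]
  have h7 : t₁ - t₀ ≤ 2 * ∑ x ∈ X.ov k W, ρ x * ω x := by
    rw [← h4, ← h5]
    exact h3
  have h8 := Finset.sum_mul_sq_le_sq_mul_sq (X.ov k W) ρ ω
  have h9 : ∑ x ∈ X.ov k W, ρ x ^ 2 ≤ A :=
    le_trans (Finset.sum_le_sum_of_subset_of_nonneg (X.ov_subset k W) fun x _ _ => sq_nonneg _) hA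
  have h10 := mul_le_mul_of_nonneg_right h9
    (Finset.sum_nonneg fun x (_ : x ∈ X.ov k W) => sq_nonneg (ω x))
  have h11 := pow_le_pow_left₀ (sub_nonneg.2 ht) h7 2
  rw [mul_pow] at h11
  linarith

theorem GP.interp_R (X : GP G Z) (k : ℕ) (U : G → ℝ) : ∃ F : C(Z, ℝ), ∀ (ξ : Z) (a b : ℝ),
    (∀ y, X.ν y = k → dist ξ (X.π y) ≤ 2 * X.C * X.q ^ k → a ≤ U y ∧ U y ≤ b) →
      a ≤ F ξ ∧ F ξ ≤ b := by
  obtain ⟨φ, hφ⟩ : ∃ φ : G → Z → ℝ, ∀ x ξ, φ x ξ = max 0 (2 * X.C * X.q ^ k - dist ξ (X.π x)) :=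
    ⟨_, fun _ _ => rfl⟩
  have hc : ∀ x, Continuous (φ x) := by
    intro x
    rw [funext (hφ x)]
    fun_prop
  have hnn : ∀ x ξ, 0 ≤ φ x ξ := fun x ξ => by rw [hφ]; exact le_max_left _ _
  have hpos : ∀ ξ, 0 < ∑ x ∈ X.S k, φ x ξ := by
    intro ξ
    obtain ⟨x, hx1, hx2⟩ := X.net k ξ
    refine Finset.sum_pos' (fun y _ => hnn y ξ) ⟨x, X.mem_S.2 hx1, ?_⟩
    rw [hφ]
    have h1 : 0 < X.C * X.q ^ k :=
      mul_pos (lt_of_lt_of_le zero_lt_one X.C_ge) (pow_pos X.q_pos k)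
    exact lt_max_of_lt_right (by linarith)
  refine ⟨⟨fun ξ => (∑ x ∈ X.S k, φ x ξ * U x) / ∑ x ∈ X.S k, φ x ξ,
    (continuous_finsetSum _ fun x _ => (hc x).mul continuous_const).div
      (continuous_finsetSum _ fun x _ => hc x) fun ξ => (hpos ξ).ne'⟩, fun ξ a b h => ?_⟩
  have key : ∀ x ∈ X.S k, a * φ x ξ ≤ φ x ξ * U x ∧ φ x ξ * U x ≤ b * φ x ξ := by
    intro x hx
    by_cases hd : dist ξ (X.π x) ≤ 2 * X.C * X.q ^ k
    · obtain ⟨h1, h2⟩ := h x (X.mem_S.1 hx) hd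
      rw [mul_comm a, mul_comm b]
      exact ⟨mul_le_mul_of_nonneg_left h1 (hnn x ξ), mul_le_mul_of_nonneg_left h2 (hnn x ξ)⟩
    · have h0 : φ x ξ = 0 := by
        rw [hφ]
        exact max_eq_left (by linarith [not_le.1 hd])
      rw [h0, mul_zero, mul_zero, zero_mul]
      exact ⟨le_rfl, le_rfl⟩
  show a ≤ (∑ x ∈ X.S k, φ x ξ * U x) / ∑ x ∈ X.S k, φ x ξ ∧
    (∑ x ∈ X.S k, φ x ξ * U x) / ∑ x ∈ X.S k, φ x ξ ≤ b
  rw [le_div_iff₀ (hpos ξ), div_le_iff₀ (hpos ξ), Finset.mul_sum, Finset.mul_sum]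
  exact ⟨Finset.sum_le_sum fun x hx => (key x hx).1, Finset.sum_le_sum fun x hx => (key x hx).2⟩

end Vale.Agent.P198
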