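import Vale.Agent.P198.R.Top
import Vale.Agent.P198.R.Sum

/-! # P198 R/Ann (helper names end with `_RAnn`)
`L` from `zoom`, `κ, M` from `BM` at `d = 1 / (8 L)`, `κ₁ = κ + 1 + L C`. Given `p, i, k` one has `i ≤ k`; `j = k - i`, `g = zoom i p`, `ρ₀` from `BM` at level `j`.
`ρ x = ∑ y ∈ ov j (closedBall (g⁻¹ • π x) (κ₁ q ^ j)), ρ₀ y` if `π x` is in the annulus, else `0`. Energy: `schur_R` on `ov k annulus`, `count_R κ₁`, and `count_R (2 L κ₁)`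
(two `x, x'` related to one `y` have `dist (π x) (π x') ≤ L * (2 κ₁ q ^ j) * q ^ i`; if `κ₁ < 0` nothing is related).
Admissibility: `ζ ∈ K` with `dist ζ p = q ^ i / 2` (`IsPreconnected.intermediate_value`), `bump` at `ζ` with radius `q ^ i / 8` gives `K'`, `ξ`; `joined_R` gives a path from `g⁻¹ ζ` to
`g⁻¹ ξ` in `thickening (q ^ j) (g⁻¹ • K')`; for each `y` counted by `Adm` there is `ξ' ∈ K'` with `dist (π y) (g⁻¹ ξ') ≤ (κ + 1) q ^ j` and by `net` an `x ∈ hit k K` in the annulus with `y` in its sum. -/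

namespace Vale.Agent.P198
open Set Metric Filter Topology MeasureTheory
set_option linter.unusedSectionVars false
variable {G Z : Type} [Group G] [MetricSpace Z] [CompactSpace Z] [MulAction G Z]
  [ContinuousConstSMul G Z]

theorem le_RAnn (X : GP G Z) {i k : ℕ} (h : 8 * X.C * X.q ^ k ≤ X.q ^ i) : i ≤ k := by
  by_contra hn
  have h1 : X.q ^ i ≤ X.q ^ k := pow_le_pow_of_le_one X.q_pos.le X.q_lt.le (by omega)
  have h2 := pow_pos X.q_pos k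
  nlinarith [X.C_ge]

theorem cover_RAnn {α β : Type} (A : Finset α) (B : Finset β) (T : α → Finset β)
    (h : ∀ b ∈ B, ∃ a ∈ A, b ∈ T a) (w : β → ℝ) (hw : ∀ b, 0 ≤ w b) :
    ∑ b ∈ B, w b ≤ ∑ a ∈ A, ∑ b ∈ T a, w b := by
  classical
  calc ∑ b ∈ B, w b ≤ ∑ b ∈ B, ∑ a ∈ A, if b ∈ T a then w b else 0 := by
        refine Finset.sum_le_sum fun b hb => ?_
        obtain ⟨a, ha, h'⟩ := h b hb
        have h1 := Finset.single_le_sum (f := fun a => if b ∈ T a then w b else 0)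
          (fun a _ => by
            split_ifs
            exacts [hw b, le_rfl]) ha
        rwa [if_pos h'] at h1
    _ = ∑ a ∈ A, ∑ b ∈ B, if b ∈ T a then w b else 0 := Finset.sum_comm
    _ ≤ _ := by
        refine Finset.sum_le_sum fun a _ => ?_
        rw [← Finset.sum_filter]
        exact Finset.sum_le_sum_of_subset_of_nonneg (fun b hb => (Finset.mem_filter.1 hb).2)
          fun b _ _ => hw b

theorem sub_RAnn {K : Set Z} (hK : Cont K) {p : Z} {s : ℝ} (hs : 0 < s)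
    (h1 : ∃ ξ ∈ K, dist ξ p ≤ s / 2) (h2 : ∃ ξ ∈ K, s ≤ dist ξ p) :
    ∃ K', Cont K' ∧ K' ⊆ K ∧ (∀ ξ ∈ K', 3 / 8 * s ≤ dist ξ p ∧ dist ξ p ≤ 5 / 8 * s) ∧
      ∃ a ∈ K', ∃ b ∈ K', dist a b = s / 8 := by
  obtain ⟨a, ha, h1⟩ := h1
  obtain ⟨b, hb, h2⟩ := h2
  have hc : ContinuousOn (fun ξ => dist ξ p) K := (continuous_id.dist continuous_const).continuousOn
  obtain ⟨ζ, hζ, e⟩ := hK.2.isPreconnected.intermediate_value ha hb hc
    (show s / 2 ∈ Icc (dist a p) (dist b p) from ⟨h1, by linarith⟩)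
  have e' : dist ζ p = s / 2 := e
  obtain ⟨K', c1, c2, c3, ξ, c4, c5⟩ := bump hK hζ hb (r := s / 8) (by linarith)
    (by linarith [dist_triangle b ζ p])
  refine ⟨K', c1, fun x hx => (c2 hx).1, fun x hx => ?_, ξ, c4, ζ, c3, c5⟩
  have h3 : dist x ζ ≤ s / 8 := (c2 hx).2
  constructor
  · linarith [dist_triangle_left ζ p x]
  · linarith [dist_triangle x ζ p]

theorem energy_RAnn (X : GP G Z) {L κ : ℝ} {N₁ N₂ : ℕ} (hL : 0 ≤ L)
    (c1 : ∀ k ξ, (X.ov k (closedBall ξ (κ * X.q ^ k))).card ≤ N₁)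
    (c2 : ∀ k ξ, (X.ov k (closedBall ξ (2 * L * κ * X.q ^ k))).card ≤ N₂) {i j : ℕ} {φ : Z → Z}
    {W : Set Z} (hφ : ∀ ξ ∈ W, ∀ ζ ∈ W, dist ξ ζ ≤ L * (dist (φ ξ) (φ ζ) * X.q ^ i))
    {T : G → Finset G}
    (hT : ∀ x y, y ∈ T x → y ∈ X.ov j (closedBall (φ (X.π x)) (κ * X.q ^ j)) ∧ X.π x ∈ W)
    (ρ : G → ℝ) : ∑ x ∈ X.S (i + j), (∑ y ∈ T x, ρ y) ^ 2 ≤ N₁ * N₂ * ∑ y ∈ X.S j, ρ y ^ 2 := by
  refine schur_R _ _ T (fun x _ y hy => X.ov_subset _ _ (hT x y hy).1)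
    (fun x _ => (Finset.card_le_card fun y hy => (hT x y hy).1).trans (c1 _ _)) (fun y _ => ?_) ρ
  by_cases hy : ∃ x, y ∈ T x
  · obtain ⟨x, hx⟩ := hy
    refine ⟨_, c2 (i + j) (X.π x), fun x' hx' h' => X.mem_ov.2 ⟨X.mem_S.1 hx', ?_⟩⟩
    have a1 : dist (X.π y) (φ (X.π x)) ≤ κ * X.q ^ j := (X.mem_ov.1 (hT x y hx).1).2
    have a2 : dist (X.π y) (φ (X.π x')) ≤ κ * X.q ^ j := (X.mem_ov.1 (hT x' y h').1).2
    have a3 : dist (φ (X.π x')) (φ (X.π x)) ≤ 2 * (κ * X.q ^ j) := by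
      linarith [dist_triangle_left (φ (X.π x')) (φ (X.π x)) (X.π y)]
    calc dist (X.π x') (X.π x) ≤ L * (dist (φ (X.π x')) (φ (X.π x)) * X.q ^ i) :=
          hφ _ (hT x' y h').2 _ (hT x y hx).2
      _ ≤ L * (2 * (κ * X.q ^ j) * X.q ^ i) :=
          mul_le_mul_of_nonneg_left (mul_le_mul_of_nonneg_right a3 (pow_pos X.q_pos i).le) hL
      _ = 2 * L * κ * X.q ^ (i + j) := by ring
  · exact ⟨∅, Nat.zero_le _, fun x _ h' => absurd ⟨x, h'⟩ hy⟩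

theorem adm_RAnn (X : GP G Z) {L κ : ℝ} (hL : 1 ≤ L) {i j : ℕ}
    (hk : 8 * X.C * X.q ^ (i + j) ≤ X.q ^ i) {p : Z} {φ : Z → Z} (hc : Continuous φ)
    (hφ : ∀ ξ ∈ closedBall p (X.q ^ i), ∀ ζ ∈ closedBall p (X.q ^ i),
      Cmp L (dist (φ ξ) (φ ζ) * X.q ^ i) (dist ξ ζ)) {T : G → Finset G}
    (hT : ∀ x y, y ∈ X.ov j (closedBall (φ (X.π x)) ((κ + 1 + L * X.C) * X.q ^ j)) →
      X.q ^ i / 4 ≤ dist (X.π x) p ∧ dist (X.π x) p ≤ 3 / 4 * X.q ^ i → y ∈ T x)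
    {ρ : G → ℝ} (h0 : ∀ x, 0 ≤ ρ x) (ha : X.Adm j κ (1 / (8 * L)) ρ) {K : Set Z} (hK : Cont K)
    (h1 : ∃ ξ ∈ K, dist ξ p ≤ X.q ^ i / 2) (h2 : ∃ ξ ∈ K, X.q ^ i ≤ dist ξ p) :
    1 ≤ ∑ x ∈ X.hit (i + j) K, ∑ y ∈ T x, ρ y := by
  classical
  have qi := pow_pos X.q_pos i
  have qj := pow_pos X.q_pos j
  obtain ⟨K', c1, c2, c3, a, ma, b, mb, e⟩ := sub_RAnn hK qi h1 h2
  have hb : ∀ ξ ∈ K', ξ ∈ closedBall p (X.q ^ i) := fun ξ hξ =>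
    mem_closedBall.2 (by linarith [(c3 ξ hξ).2])
  have := (sph_conn X.sph).2.1
  obtain ⟨γ, hγ⟩ := joined_R (c1.2.isPreconnected.image φ hc.continuousOn)
    (isOpen_thickening (δ := X.q ^ j)) (self_subset_thickening qj _) (mem_image_of_mem φ ma)
    (mem_image_of_mem φ mb)
  have hd : 1 / (8 * L) ≤ dist (γ.toContinuousMap 0) (γ.toContinuousMap 1) := by
    have e0 : γ.toContinuousMap 0 = φ a := γ.source
    have e1 : γ.toContinuousMap 1 = φ b := γ.target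
    have h3 := (hφ a (hb a ma) b (hb b mb)).2
    rw [e0, e1, div_le_iff₀ (by linarith)]
    rw [e] at h3
    refine le_of_mul_le_mul_right ?_ qi
    linarith
  refine (ha γ.toContinuousMap hd).trans (cover_RAnn _ _ T (fun y hy => ?_) ρ h0)
  obtain ⟨hy, t, ht⟩ := Finset.mem_filter.1 hy
  obtain ⟨_, ⟨ξ, mξ, rfl⟩, h4⟩ := mem_thickening_iff.1 (hγ t)
  obtain ⟨x, hx, h5⟩ := X.net (i + j) ξ
  have h6 : X.q ^ i / 4 ≤ dist (X.π x) p ∧ dist (X.π x) p ≤ 3 / 4 * X.q ^ i := by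
    constructor
    · linarith [(c3 ξ mξ).1, dist_triangle ξ (X.π x) p]
    · linarith [(c3 ξ mξ).2, dist_triangle_left (X.π x) p ξ]
  refine ⟨x, X.mem_hit.2 ⟨hx, ξ, c2 mξ, h5⟩, hT x y (X.mem_ov.2 ⟨X.mem_S.1 hy, ?_⟩) h6⟩
  have h7 := (hφ ξ (hb ξ mξ) (X.π x) (mem_closedBall.2 (by linarith [h6.2]))).1
  have h8 : dist (φ ξ) (φ (X.π x)) ≤ L * X.C * X.q ^ j := by
    refine le_of_mul_le_mul_right (h7.trans ?_) qi
    calc L * dist ξ (X.π x) ≤ L * (X.C * X.q ^ (i + j)) :=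
          mul_le_mul_of_nonneg_left h5 (by linarith)
      _ = L * X.C * X.q ^ j * X.q ^ i := by ring
  have h9 : dist (γ t) (X.π y) < κ * X.q ^ j := ht
  have h10 := dist_triangle_left (X.π y) (φ ξ) (γ t)
  have h11 := dist_triangle (X.π y) (φ ξ) (φ (X.π x))
  rw [mem_closedBall]
  linarith

theorem GP.ann_R (X : GP G Z) (h : X.BM) : ∃ A > 0, X.Ann A := by
  classical
  obtain ⟨L, hL, hz⟩ := X.zoom
  have hL0 : 0 < L := by linarith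
  obtain ⟨κ, M, H⟩ := h (1 / (8 * L)) (by positivity)
  obtain ⟨N₁, c1⟩ := X.count_R (κ + 1 + L * X.C)
  obtain ⟨N₂, c2⟩ := X.count_R (2 * L * (κ + 1 + L * X.C))
  refine ⟨N₁ * N₂ * |M| + 1, by positivity, fun p i k hk => ?_⟩
  obtain ⟨j, rfl⟩ := Nat.exists_eq_add_of_le (le_RAnn X hk)
  obtain ⟨g, hg, -⟩ := hz i p
  obtain ⟨ρ, h0, h1, h2⟩ := H j
  obtain ⟨T, hT⟩ : ∃ T : G → Finset G, ∀ x y, y ∈ T x ↔
      y ∈ X.ov j (closedBall (g⁻¹ • X.π x) ((κ + 1 + L * X.C) * X.q ^ j)) ∧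
        X.q ^ i / 4 ≤ dist (X.π x) p ∧ dist (X.π x) p ≤ 3 / 4 * X.q ^ i :=
    ⟨fun x => (X.ov j (closedBall (g⁻¹ • X.π x) ((κ + 1 + L * X.C) * X.q ^ j))).filter fun _ =>
      X.q ^ i / 4 ≤ dist (X.π x) p ∧ dist (X.π x) p ≤ 3 / 4 * X.q ^ i,
      fun x y => Finset.mem_filter⟩
  have qi := pow_pos X.q_pos i
  refine ⟨fun x => ∑ y ∈ T x, ρ y, fun x => Finset.sum_nonneg fun y _ => h0 y, fun x hx => ?_, ?_,
    fun K hK a1 a2 => adm_RAnn X hL hk (continuous_const_smul g⁻¹) hg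
      (fun x y b1 b2 => (hT x y).2 ⟨b1, b2⟩) h0 h2 hK a1 a2⟩
  · obtain ⟨y, hy, -⟩ := Finset.exists_ne_zero_of_sum_ne_zero hx
    exact ((hT x y).1 hy).2
  · have h3 := energy_RAnn X hL0.le c1 c2 (i := i) (j := j) (φ := fun ξ => g⁻¹ • ξ)
      (W := closedBall p (X.q ^ i)) (fun ξ a ζ b => (hg ξ a ζ b).2) (T := T)
      (fun x y hy => ⟨((hT x y).1 hy).1, mem_closedBall.2 (by linarith [((hT x y).1 hy).2.2])⟩) ρ
    have h4 : (N₁ * N₂ : ℝ) * ∑ y ∈ X.S j, ρ y ^ 2 ≤ N₁ * N₂ * |M| :=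
      mul_le_mul_of_nonneg_left (h1.trans (le_abs_self M)) (by positivity)
    linarith

end Vale.Agent.P198
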