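import Vale.Agent.P198.R.Top
import Vale.Agent.P198.R.Sum

/-! # P198 R/Core1 (helper names end with `_RC1`)
`l` with `q ^ l ≤ 1 / 4`. Induction on `N`, for all `i`: if `8 C q ^ k ≤ q ^ (i + N l)` and for each `t ∈ Ioo t₀ t₁` some continuum in `{f = t}` has a point in `closedBall p (q ^ (i + N l) / 2)`
and a point at distance `≥ q ^ i`, then `N (t₁ - t₀) ^ 2 ≤ 4 A ∑ x ∈ ov k (closedBall p (q ^ i)), ω x ^ 2` (`la_R` with `W` = annulus `{q ^ i / 4 ≤ dist ≤ 3 / 4 q ^ i}`, which is disjoint from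
`ball p (q ^ i / 4)`; use open balls in the induction, or take `q ^ l < 1 / 4`). Then `N ≥ 4 A M`, `c` from `level_R`, `σ` from `path_R`, `i` from `scale_R` at `s = c ε ≤ 2 C` (`dist_le`, `diam_le_of_forall_dist_le`),
`τ = (q / (2 C)) c q ^ (N l) / (8 C Λ)`. -/

namespace Vale.Agent.P198
open Set Metric Filter Topology MeasureTheory
set_option linter.unusedSectionVars false
variable {G Z : Type} [Group G] [MetricSpace Z] [CompactSpace Z] [MulAction G Z]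
  [ContinuousConstSMul G Z]

theorem GP.ind_RC1 (X : GP G Z) {A : ℝ} (hA : 0 < A) (h : X.Ann A) {l : ℕ} (hl : X.q ^ l < 1 / 4)
    {k : ℕ} {f : Z → ℝ} {ω : G → ℝ} {t₀ t₁ : ℝ} (hω : X.Maj k X.C f ω) (ht : t₀ ≤ t₁) (p : Z)
    (N : ℕ) : ∀ i : ℕ, 8 * X.C * X.q ^ k ≤ X.q ^ (i + N * l) →
      (∀ t ∈ Ioo t₀ t₁, ∃ L, Cont L ∧ (∀ ξ ∈ L, f ξ = t) ∧
        (∃ ξ ∈ L, dist ξ p ≤ X.q ^ (i + N * l) / 2) ∧ ∃ ξ ∈ L, X.q ^ i ≤ dist ξ p) →
      N * (t₁ - t₀) ^ 2 ≤ 4 * A * ∑ x ∈ X.ov k (closedBall p (X.q ^ i)), ω x ^ 2 := by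
  classical
  have hq0 := X.q_pos
  have hq1 := X.q_lt
  induction N with
  | zero =>
    intro i _ _
    have : 0 ≤ ∑ x ∈ X.ov k (closedBall p (X.q ^ i)), ω x ^ 2 :=
      Finset.sum_nonneg fun x _ => sq_nonneg _
    simp only [Nat.cast_zero, zero_mul]
    positivity
  | succ N ih =>
    intro i hk hL
    have e : i + (N + 1) * l = i + l + N * l := by ring
    have hm : ∀ j : ℕ, X.q ^ (i + j) ≤ X.q ^ i := fun j =>
      pow_le_pow_of_le_one hq0.le hq1.le (Nat.le_add_right _ _)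
    have hqi : 0 < X.q ^ i := pow_pos hq0 i
    have h1 := ih (i + l) (e ▸ hk) fun t htt => by
      obtain ⟨L, hc, hf, ha, ξ, hξ, hb⟩ := hL t htt
      exact ⟨L, hc, hf, e ▸ ha, ξ, hξ, (hm l).trans hb⟩
    obtain ⟨ρ, hρ0, hρW, hρA, hρK⟩ := h p i k (hk.trans (hm _))
    have h2 := X.la_R (W := {ξ | X.q ^ i / 4 ≤ dist ξ p ∧ dist ξ p ≤ 3 / 4 * X.q ^ i}) hω hρ0 hρW
      hρA ht fun t htt => by
        obtain ⟨L, hc, hf, ⟨ζ, hζ, ha⟩, hb⟩ := hL t htt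
        exact ⟨L, hf, hρK L hc ⟨ζ, hζ, ha.trans (by linarith [hm ((N + 1) * l)])⟩ hb⟩
    have hlt : X.q ^ (i + l) < X.q ^ i / 4 := by
      rw [pow_add]
      nlinarith
    have hd : Disjoint (X.ov k (closedBall p (X.q ^ (i + l))))
        (X.ov k {ξ | X.q ^ i / 4 ≤ dist ξ p ∧ dist ξ p ≤ 3 / 4 * X.q ^ i}) := by
      rw [Finset.disjoint_left]
      intro x hx hx'
      have a1 : dist (X.π x) p ≤ X.q ^ (i + l) := (X.mem_ov.1 hx).2
      have a2 : X.q ^ i / 4 ≤ dist (X.π x) p := (X.mem_ov.1 hx').2.1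
      linarith
    have hs : X.ov k (closedBall p (X.q ^ (i + l))) ∪
        X.ov k {ξ | X.q ^ i / 4 ≤ dist ξ p ∧ dist ξ p ≤ 3 / 4 * X.q ^ i} ⊆
          X.ov k (closedBall p (X.q ^ i)) := by
      refine Finset.union_subset (X.ov_mono k (closedBall_subset_closedBall (hm l)))
        (X.ov_mono k fun ξ hξ => ?_)
      have a2 : dist ξ p ≤ 3 / 4 * X.q ^ i := hξ.2
      rw [mem_closedBall]
      linarith
    have h3 := Finset.sum_le_sum_of_subset_of_nonneg (f := fun x => ω x ^ 2) hs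
      fun x _ _ => sq_nonneg _
    rw [Finset.sum_union hd] at h3
    have h4 := mul_le_mul_of_nonneg_left h3 (by positivity : 0 ≤ 4 * A)
    push_cast
    linarith

theorem GP.core1_R (X : GP G Z) {A : ℝ} (hA : 0 < A) (h : X.Ann A) : X.Core1 := by
  obtain ⟨l, hl⟩ := exists_pow_lt_of_lt_one (by norm_num : (0 : ℝ) < 1 / 4) X.q_lt
  obtain ⟨c, hc0, hc1, hlev⟩ := X.level_R
  obtain ⟨Λ, hΛ, hpath⟩ := X.path_R
  have hq0 := X.q_pos
  have hq1 := X.q_lt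
  have hC := X.C_ge
  intro M
  obtain ⟨N, hN⟩ := exists_nat_ge (4 * A * M)
  refine ⟨X.q / (2 * X.C) * c * X.q ^ (N * l) / (8 * X.C * Λ), by positivity, ?_⟩
  intro f K₀ K₁ ε t₀ t₁ hcfg p₀ hp₀ p₁ hp₁ hd k hk ω hω
  have hε := hcfg.pos
  have hε2 : ε ≤ 2 * X.C :=
    hcfg.d₀.trans (diam_le_of_forall_dist_le (by positivity) fun ξ _ ζ _ => X.dist_le ξ ζ)
  have hcε : c * ε ≤ ε := by nlinarith
  obtain ⟨i, hi1, hi2⟩ := scale_R hq0 hq1 (mul_pos hc0 hε) (by linarith : 1 ≤ 2 * X.C)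
    (hcε.trans hε2)
  set τ := X.q / (2 * X.C) * c * X.q ^ (N * l) / (8 * X.C * Λ) with hτ
  have hτ0 : 0 < τ := by positivity
  have key : 8 * X.C * Λ * (τ * ε) ≤ X.q ^ (i + N * l) := by
    have e : 8 * X.C * Λ * (τ * ε) = X.q / (2 * X.C) * (c * ε) * X.q ^ (N * l) := by
      rw [hτ]
      field_simp
    rw [e, pow_add]
    exact mul_le_mul_of_nonneg_right hi2 (by positivity)
  have hτε : 0 < τ * ε := mul_pos hτ0 hε
  have k1 : 8 * X.C * X.q ^ k ≤ X.q ^ (i + N * l) := by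
    have a1 : 8 * X.C * X.q ^ k ≤ 8 * X.C * (τ * ε) := mul_le_mul_of_nonneg_left hk (by positivity)
    have a2 : 8 * X.C * (τ * ε) * 1 ≤ 8 * X.C * (τ * ε) * Λ :=
      mul_le_mul_of_nonneg_left hΛ (by positivity)
    linarith
  have k2 : Λ * dist p₀ p₁ ≤ X.q ^ (i + N * l) / 2 := by
    have a1 : Λ * dist p₀ p₁ ≤ Λ * (τ * ε) := mul_le_mul_of_nonneg_left hd (by positivity)
    have a2 : Λ * (τ * ε) * 1 ≤ Λ * (τ * ε) * X.C :=
      mul_le_mul_of_nonneg_left hC (by positivity)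
    have a3 : 0 ≤ Λ * (τ * ε) := by positivity
    nlinarith
  obtain ⟨σ, hσ, h0, h1, hσb⟩ := hpath p₀ p₁
  have main := X.ind_RC1 hA h hl hω hcfg.le p₀ N i k1 fun t ht => by
    obtain ⟨L, hL, hf, ⟨ξ, hξ, hξσ⟩, hfar⟩ :=
      hlev f K₀ K₁ ε t₀ t₁ hcfg σ hσ.2.isPreconnected ⟨p₀, h0, hp₀⟩ ⟨p₁, h1, hp₁⟩ t ht
    obtain ⟨ζ, hζ, hζd⟩ := hfar p₀
    exact ⟨L, hL, hf, ⟨ξ, hξ, (mem_closedBall.1 (hσb hξσ)).trans k2⟩, ζ, hζ, hi1.trans hζd⟩
  have h3 := Finset.sum_le_sum_of_subset_of_nonneg (f := fun x => ω x ^ 2)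
    (X.ov_mono k (closedBall_subset_closedBall (x := p₀) (hi1.trans hcε))) fun x _ _ => sq_nonneg _
  have h4 := mul_le_mul_of_nonneg_left h3 (by positivity : 0 ≤ 4 * A)
  have h5 := mul_le_mul_of_nonneg_right hN (sq_nonneg (t₁ - t₀))
  refine le_of_mul_le_mul_left ?_ (by positivity : 0 < 4 * A)
  linarith

end Vale.Agent.P198
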