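import Vale.Agent.P198.R.Top
import Vale.Agent.P198.R.Sum

/-! # P198 R/Core2 (helper names end with `_RC2`)
`c₀` from `level_R`, `l` with `2 C q ^ l ≤ 1`, `i` from `scale_R` at `s = c₀ ε ≤ 2 C`, `j = i + l`. The set `hit j σ` has at most `N` elements, `N` from `count_R` with
`κ = 2 C / (q c₀ τ q ^ l) + C` around a point of `σ` (`diam σ ≤ ε / τ`). `ρ = ∑ y ∈ hit j σ, ρ y` with `ρ y` from `Ann` at `(π y, i, k)`; energy `≤ N * N * A` (`sq_sum_le_card_mul_sum_sq`),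
support in `cthickening ε σ` (`mem_cthickening_of_dist_le`, `5 / 4 q ^ i ≤ ε`); the continuum of `level_R` meets `σ` at a point within `C q ^ j ≤ q ^ i / 2` of some `π y` (`net`). `la_R`;
`c = min (1 / (4 (N * N * A + 1))) (q c₀ / (2 C * 8 C))`. -/

namespace Vale.Agent.P198
open Set Metric Filter Topology MeasureTheory
set_option linter.unusedSectionVars false
variable {G Z : Type} [Group G] [MetricSpace Z] [CompactSpace Z] [MulAction G Z]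
  [ContinuousConstSMul G Z]

theorem GP.card_RC2 (X : GP G Z) {c₀ τ ε : ℝ} (hc : 0 < c₀) (hτ : 0 < τ) {i l N : ℕ}
    (hN : ∀ (k : ℕ) (ξ : Z), (X.ov k (closedBall ξ
      ((2 * X.C / (X.q * c₀ * τ * X.q ^ l) + X.C) * X.q ^ k))).card ≤ N)
    (hi : X.q / (2 * X.C) * (c₀ * ε) ≤ X.q ^ i) {σ : Set Z} {a : Z} (ha : a ∈ σ)
    (hσ : τ * diam σ ≤ ε) : (X.hit (i + l) σ).card ≤ N := by
  refine le_trans (Finset.card_le_card fun y hy => ?_) (hN (i + l) a)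
  obtain ⟨h1, ξ, hξ, h2⟩ := X.mem_hit.1 hy
  refine X.mem_ov.2 ⟨h1, ?_⟩
  have hq := X.q_pos
  have hC : 0 < X.C := lt_of_lt_of_le one_pos X.C_ge
  have h3 : dist ξ a ≤ diam σ := dist_le_diam_of_mem isBounded_of_compactSpace hξ ha
  have h4 : diam σ ≤ 2 * X.C / (X.q * c₀ * τ * X.q ^ l) * X.q ^ (i + l) := by
    have e : 2 * X.C / (X.q * c₀ * τ * X.q ^ l) * X.q ^ (i + l) =
        2 * X.C * X.q ^ i / (X.q * c₀ * τ) := by
      rw [pow_add]
      field_simp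
    rw [e, le_div_iff₀ (by positivity)]
    rw [div_mul_eq_mul_div, div_le_iff₀ (by positivity)] at hi
    have h5 := mul_le_mul_of_nonneg_left hσ (mul_pos hq hc).le
    nlinarith
  rw [mem_closedBall, add_mul]
  linarith [dist_triangle_left (X.π y) a ξ]

theorem energy_RC2 {α β : Type} (H : Finset α) (S : Finset β) (ρ : α → β → ℝ) {A : ℝ} (hA : 0 ≤ A)
    {N : ℕ} (hN : H.card ≤ N) (h : ∀ y, ∑ x ∈ S, ρ y x ^ 2 ≤ A) :
    ∑ x ∈ S, (∑ y ∈ H, ρ y x) ^ 2 ≤ N * N * A := by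
  have h1 : ∑ x ∈ S, (∑ y ∈ H, ρ y x) ^ 2 ≤ ∑ x ∈ S, (H.card : ℝ) * ∑ y ∈ H, ρ y x ^ 2 :=
    Finset.sum_le_sum fun x _ => sq_sum_le_card_mul_sum_sq
  rw [← Finset.mul_sum, Finset.sum_comm] at h1
  have h2 : ∑ y ∈ H, ∑ x ∈ S, ρ y x ^ 2 ≤ H.card * A := by
    have := Finset.sum_le_card_nsmul H (fun y => ∑ x ∈ S, ρ y x ^ 2) A fun y _ => h y
    rwa [nsmul_eq_mul] at this
  have h3 : (H.card : ℝ) ≤ N := by exact_mod_cast hN
  have h4 : (0 : ℝ) ≤ H.card := Nat.cast_nonneg _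
  calc ∑ x ∈ S, (∑ y ∈ H, ρ y x) ^ 2 ≤ H.card * (H.card * A) :=
        h1.trans (mul_le_mul_of_nonneg_left h2 h4)
    _ = H.card * H.card * A := by ring
    _ ≤ N * N * A := mul_le_mul_of_nonneg_right (mul_le_mul h3 h3 h4 (h4.trans h3)) hA

theorem GP.core2_R (X : GP G Z) {A : ℝ} (hA : 0 < A) (h : X.Ann A) : X.Core2 := by
  intro τ hτ
  have hq := X.q_pos
  have hC : 0 < X.C := lt_of_lt_of_le one_pos X.C_ge
  obtain ⟨c₀, hc0, hc1, hlev⟩ := X.level_R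
  obtain ⟨l, hl⟩ := exists_pow_lt_of_lt_one (show 0 < 1 / (2 * X.C) by positivity) X.q_lt
  obtain ⟨N, hN⟩ := X.count_R (2 * X.C / (X.q * c₀ * τ * X.q ^ l) + X.C)
  refine ⟨min (1 / (4 * (N * N * A + 1))) (X.q * c₀ / (2 * X.C * (8 * X.C))),
    lt_min (by positivity) (by positivity), ?_⟩
  intro f K₀ K₁ ε t₀ t₁ hcfg σ hσ h0 h1 hd k hk ω hω
  have hε := hcfg.pos
  have hε2 : ε ≤ 2 * X.C :=
    hcfg.d₀.trans (diam_le_of_forall_dist_le (by positivity) fun ξ _ ζ _ => X.dist_le ξ ζ)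
  obtain ⟨i, hi1, hi2⟩ := scale_R hq X.q_lt (mul_pos hc0 hε) (B := 2 * X.C)
    (by linarith [X.C_ge]) (by nlinarith)
  have hqi : 0 < X.q ^ i := pow_pos hq i
  have hj : X.C * X.q ^ (i + l) ≤ X.q ^ i / 2 := by
    rw [lt_div_iff₀ (by positivity)] at hl
    rw [pow_add]
    nlinarith
  have hk2 : 8 * X.C * X.q ^ k ≤ X.q ^ i := by
    have k1 := hk.trans (mul_le_mul_of_nonneg_right (min_le_right _ _) hε.le)
    have k2 := mul_le_mul_of_nonneg_left k1 (show 0 ≤ 8 * X.C by positivity)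
    have e : 8 * X.C * (X.q * c₀ / (2 * X.C * (8 * X.C)) * ε) = X.q / (2 * X.C) * (c₀ * ε) := by
      field_simp
    linarith
  choose ρ r0 r1 r2 r3 using fun y : G => h (X.π y) i k hk2
  obtain ⟨a, ha, -⟩ := id h0
  have hcard := X.card_RC2 hc0 hτ hN hi2 ha hd
  have key := X.la_R (ρ := fun x => ∑ y ∈ X.hit (i + l) σ, ρ y x) (W := cthickening ε σ)
    (A := N * N * A) hω (fun x => Finset.sum_nonneg fun y _ => r0 y x)
    (fun x hx => by
      obtain ⟨y, hy, hne⟩ := Finset.exists_ne_zero_of_sum_ne_zero hx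
      obtain ⟨-, ξ, hξ, h2⟩ := X.mem_hit.1 hy
      refine mem_cthickening_of_dist_le _ ξ _ _ hξ ?_
      have := (r1 y x hne).2
      nlinarith [dist_triangle_right (X.π x) ξ (X.π y)])
    (energy_RC2 _ _ ρ hA.le hcard r2) hcfg.le
    (fun t ht => by
      obtain ⟨L, hL, hf, ⟨b, hbL, hbσ⟩, hfar⟩ := hlev f K₀ K₁ ε t₀ t₁ hcfg σ hσ h0 h1 t ht
      obtain ⟨y, hy1, hy2⟩ := X.net (i + l) b
      obtain ⟨ζ, hζ, hζ2⟩ := hfar (X.π y)
      refine ⟨L, hf, (r3 y L hL ⟨b, hbL, hy2.trans hj⟩ ⟨ζ, hζ, hi1.trans hζ2⟩).trans ?_⟩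
      exact Finset.sum_le_sum fun x _ => Finset.single_le_sum (f := fun y => ρ y x)
        (fun y _ => r0 y x) (X.mem_hit.2 ⟨hy1, b, hbσ, hy2⟩))
  have hS : 0 ≤ ∑ x ∈ X.ov k (cthickening ε σ), ω x ^ 2 :=
    Finset.sum_nonneg fun x _ => sq_nonneg _
  generalize ∑ x ∈ X.ov k (cthickening ε σ), ω x ^ 2 = S at key hS ⊢
  refine (mul_le_mul_of_nonneg_right (min_le_left _ _) (sq_nonneg _)).trans ?_
  rw [div_mul_eq_mul_div, one_mul, div_le_iff₀ (by positivity)]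
  nlinarith

end Vale.Agent.P198
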