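import Vale.Agent.P198.R.Top
import Vale.Agent.P198.R.Sum

/-! # P198 R/Est (helper names end with `_REst`)
`ε₀ = min (diam E) (diam F)`. `equi_R`: `Core1` with `M = (|A| + 1) / η ^ 2`, `mon_cfg_R` (order `ξ, ζ` by the values of `g`), `ε = ε₀`.
`levb_R`: `κ` from `step R`, `σ` from `path_R` joining `π y` to `π (y s)`, `diam σ ≤ 2 Λ κ q ^ j`, `ε = ε₀ q ^ j`, `τ = ε₀ / (2 Λ κ)`; `Core2` gives
`c (g (π (y s)) - g (π y)) ^ 2 ≤ ∑ x ∈ ov k (closedBall (π y) ((Λ κ + ε₀) q ^ j)), ω x ^ 2` (`cthickening_closedBall` type inclusion); sum with `dbl_R`, `count_R`. -/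

namespace Vale.Agent.P198
open Set Metric Filter Topology MeasureTheory
set_option linter.unusedSectionVars false
variable {G Z : Type} [Group G] [MetricSpace Z] [CompactSpace Z] [MulAction G Z]
  [ContinuousConstSMul G Z]

theorem GP.equi_R (X : GP G Z) (h : X.Core1) {E F : Set Z} (hE : Cont E) (hF : Cont F)
    (dE : 0 < diam E) (dF : 0 < diam F) (A : ℝ) {η : ℝ} (hη : 0 < η) : ∃ τ > 0, ∀ k g,
      X.q ^ k ≤ τ → X.Good E F A k g → ∀ ξ ζ, dist ξ ζ ≤ τ → |g ξ - g ζ| ≤ η := by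
  obtain ⟨τ, hτ, H⟩ := h ((|A| + 1) / η ^ 2)
  have hε : 0 < min (diam E) (diam F) := lt_min dE dF
  refine ⟨τ * min (diam E) (diam F), mul_pos hτ hε, ?_⟩
  rintro k g hk ⟨hc, hm, ω, hω, hA⟩
  have key : ∀ ξ ζ, dist ξ ζ ≤ τ * min (diam E) (diam F) → g ξ ≤ g ζ → g ζ - g ξ ≤ η :=
    fun ξ ζ hd hle => by
      obtain ⟨K₀, K₁, h0, h1, hK⟩ :=
        mon_cfg_R hE hF hc hm hε (min_le_left _ _) (min_le_right _ _) hle
      have h2 := (H g K₀ K₁ _ _ _ hK ξ h0 ζ h1 hd k hk ω hω).trans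
        ((Finset.sum_le_sum_of_subset_of_nonneg (X.ov_subset k _) fun _ _ _ => sq_nonneg _).trans
          (hA.trans (le_abs_self A)))
      rw [div_mul_eq_mul_div, div_le_iff₀ (by positivity)] at h2
      refine le_of_sq_le_sq ?_ hη.le
      nlinarith [abs_nonneg A, sq_nonneg η, sq_nonneg (g ζ - g ξ)]
  intro ξ ζ hd
  rcases le_total (g ξ) (g ζ) with h1 | h1
  · rw [abs_sub_comm, abs_of_nonneg (sub_nonneg.2 h1)]
    exact key ξ ζ hd h1
  · rw [abs_of_nonneg (sub_nonneg.2 h1)]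
    exact key ζ ξ (dist_comm ξ ζ ▸ hd) h1

theorem GP.levb_R (X : GP G Z) (h : X.Core2) {E F : Set Z} (hE : Cont E) (hF : Cont F)
    (dE : 0 < diam E) (dF : 0 < diam F) (A : ℝ) (R : ℕ) : ∃ c > (0 : ℝ), ∃ M : ℝ, ∀ j k g,
      X.q ^ k ≤ c * X.q ^ j → X.Good E F A k g → X.lev j R univ (fun x => g (X.π x)) ≤ M := by
  obtain ⟨κ, hκ, hs⟩ := X.step R
  obtain ⟨Λ, hΛ, hp⟩ := X.path_R
  have hε : 0 < min (diam E) (diam F) := lt_min dE dF
  have hE' := min_le_left (diam E) (diam F)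
  have hF' := min_le_right (diam E) (diam F)
  generalize min (diam E) (diam F) = ε at hε hE' hF'
  have hΛ' : 0 < Λ := one_pos.trans_le hΛ
  obtain ⟨c, hc, H⟩ := h (ε / (2 * Λ * κ)) (by positivity)
  obtain ⟨N, hN⟩ := X.count_R (ε + Λ * κ)
  refine ⟨c * ε, by positivity, (X.B R).card * (c⁻¹ * (N * A)), ?_⟩
  rintro j k g hk ⟨hco, hm, ω, hω, hA⟩
  have hq : 0 < X.q ^ j := pow_pos X.q_pos j
  have hq1 : ε * X.q ^ j ≤ ε := mul_le_of_le_one_right hε.le (pow_le_one₀ X.q_pos.le X.q_lt.le)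
  have key : ∀ y ∈ X.S j, ∀ s ∈ X.B R, (g (X.π (y * s)) - g (X.π y)) ^ 2 ≤
      c⁻¹ * ∑ x ∈ X.ov k (closedBall (X.π y) ((ε + Λ * κ) * X.q ^ j)), ω x ^ 2 := fun y hy s hs' => by
    obtain ⟨σ, hσ, h0, h1, h2⟩ := hp (X.π y) (X.π (y * s))
    have h3 : σ ⊆ closedBall (X.π y) (Λ * κ * X.q ^ j) := h2.trans (closedBall_subset_closedBall (by
      have := hs y s (X.mem_B.1 hs')
      rw [X.mem_S.1 hy, dist_comm] at this
      rw [mul_assoc]
      exact mul_le_mul_of_nonneg_left this hΛ'.le))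
    have h4 : ε / (2 * Λ * κ) * diam σ ≤ ε * X.q ^ j :=
      (mul_le_mul_of_nonneg_left (diam_le_of_subset_closedBall (by positivity) h3)
        (by positivity)).trans_eq (by field_simp)
    have h5 : cthickening (ε * X.q ^ j) σ ⊆ closedBall (X.π y) ((ε + Λ * κ) * X.q ^ j) := by
      refine (cthickening_subset_of_subset _ h3).trans ?_
      rw [← cthickening_singleton _ (by positivity), ← cthickening_singleton _ (by positivity),
        add_mul]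
      exact cthickening_cthickening_subset (by positivity) (by positivity) _
    have h6 : ∀ ξ ∈ σ, ∀ ζ ∈ σ, g ξ ≤ g ζ → (g ζ - g ξ) ^ 2 ≤
        c⁻¹ * ∑ x ∈ X.ov k (closedBall (X.π y) ((ε + Λ * κ) * X.q ^ j)), ω x ^ 2 :=
      fun ξ hξ ζ hζ hle => by
        obtain ⟨K₀, K₁, a0, a1, hK⟩ :=
          mon_cfg_R hE hF hco hm (mul_pos hε hq) (hq1.trans hE') (hq1.trans hF') hle
        rw [le_inv_mul_iff₀ hc]
        exact (H g K₀ K₁ _ _ _ hK σ hσ.2.2 ⟨ξ, hξ, a0⟩ ⟨ζ, hζ, a1⟩ h4 k (by rwa [← mul_assoc]) ω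
          hω).trans (Finset.sum_le_sum_of_subset_of_nonneg (X.ov_mono k h5) fun _ _ _ => sq_nonneg _)
    rcases le_total (g (X.π y)) (g (X.π (y * s))) with a | a
    · exact h6 _ h0 _ h1 a
    · rw [sub_sq_comm]
      exact h6 _ h1 _ h0 a
  have h7 := dbl_R (X.S j) (X.S k) (fun y => X.ov k (closedBall (X.π y) ((ε + Λ * κ) * X.q ^ j)))
    (fun y _ => X.ov_subset k _) (N := N) (fun x _ => ⟨_, hN j (X.π x), fun y hy hx =>
      X.mem_ov.2 ⟨X.mem_S.1 hy, mem_closedBall_comm.1 (X.mem_ov.1 hx).2⟩⟩) (fun x => ω x ^ 2)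
    fun _ => sq_nonneg _
  rw [X.lev_eq, X.ov_univ]
  refine (Finset.sum_le_sum fun y hy => Finset.sum_le_card_nsmul _ _ _ (key y hy)).trans ?_
  simp only [nsmul_eq_mul, ← Finset.mul_sum]
  gcongr
  exact h7.trans (mul_le_mul_of_nonneg_left hA (Nat.cast_nonneg N))

end Vale.Agent.P198
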