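import Vale.Agent.P198.R.Pre
import Vale.Agent.P198.R.Est

/-! # P198 R/Cut (helper names end with `_RCut`): pointwise limit along an ultrafilter -/

namespace Vale.Agent.P198
open Set Metric Filter Topology MeasureTheory
set_option linter.unusedSectionVars false
variable {G Z : Type} [Group G] [MetricSpace Z] [CompactSpace Z] [MulAction G Z]
  [ContinuousConstSMul G Z]

theorem GP.cut_R (X : GP G Z) {A : ℝ} (h : X.Ann A) (h1 : X.Core1) (h2 : X.Core2) (R : ℕ) (p : Z)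
    {r : ℝ} (hr : 0 < r) : ∃ χ : C(Z, ℝ), (∀ᶠ ξ in 𝓝 p, χ ξ = 1) ∧
      (∀ ξ, r ≤ dist ξ p → χ ξ = 0) ∧ ∃ M : ℝ, ∀ k, X.lev k R univ (fun x => χ (X.π x)) ≤ M := by
  obtain ⟨E, F, hE, hF, dE, dF, nE, hr', A', hg⟩ := X.good_R h p hr
  obtain ⟨g, hg⟩ := hg.choice
  have hq : Tendsto (fun k : ℕ => X.q ^ k) atTop (𝓝 0) :=
    tendsto_pow_atTop_nhds_zero_of_lt_one X.q_pos.le X.q_lt
  have hU : (hyperfilter ℕ : Filter ℕ) ≤ atTop := Nat.hyperfilter_le_atTop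
  have hl : ∀ ξ, ∃ a : ℝ, Tendsto (fun k => g k ξ) (hyperfilter ℕ) (𝓝 a) := fun ξ => by
    have h3 : ((hyperfilter ℕ).map fun k => g k ξ : Filter ℝ) ≤ 𝓟 (Icc 0 1) :=
      le_principal_iff.2 (mem_map.2 ((hg.filter_mono hU).mono fun k hk => hk.1.1 ξ))
    obtain ⟨a, -, ha⟩ := isCompact_Icc.ultrafilter_le_nhds ((hyperfilter ℕ).map fun k => g k ξ) h3
    exact ⟨a, ha⟩
  choose u hu using hl
  have hc : UniformContinuous u := by
    refine Metric.uniformContinuous_iff_le.2 fun η hη => ?_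
    obtain ⟨τ, hτ, H⟩ := X.equi_R h1 hE hF dE dF A' hη
    refine ⟨τ, hτ, fun {ξ ζ} hd => ?_⟩
    rw [Real.dist_eq]
    refine le_of_tendsto ((hu ξ).sub (hu ζ)).abs ?_
    filter_upwards [hg.filter_mono hU, (hq.eventually (ge_mem_nhds hτ)).filter_mono hU] with k a b
    exact H k _ b a ξ ζ hd
  have hv : ∀ ξ (c : ℝ), (∀ k, X.Good E F A' k (g k) → g k ξ = c) → u ξ = c := fun ξ c H =>
    tendsto_nhds_unique (hu ξ) (tendsto_const_nhds.congr'
      ((hg.filter_mono hU).mono fun k hk => (H k hk).symm))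
  obtain ⟨c, hc0, M, H⟩ := X.levb_R h2 hE hF dE dF A' R
  refine ⟨⟨fun ξ => 1 - u ξ, continuous_const.sub hc.continuous⟩, ?_, fun ξ hξ => ?_, M, fun j => ?_⟩
  · filter_upwards [nE] with ξ hξ
    change 1 - u ξ = 1
    rw [hv ξ 0 fun k hk => hk.1.2.1 ξ hξ, sub_zero]
  · change 1 - u ξ = 0
    rw [hv ξ 1 fun k hk => hk.1.2.2 ξ (hr' ξ hξ), sub_self]
  · have h3 : Tendsto (fun k => X.lev j R univ fun x => g k (X.π x)) (hyperfilter ℕ)
        (𝓝 (∑ x ∈ X.ov j univ, ∑ s ∈ X.B R, (u (X.π (x * s)) - u (X.π x)) ^ 2)) :=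
      tendsto_finsetSum _ fun x _ => tendsto_finsetSum _ fun s _ => ((hu _).sub (hu _)).pow 2
    have h4 : ∑ x ∈ X.ov j univ, ∑ s ∈ X.B R, (u (X.π (x * s)) - u (X.π x)) ^ 2 ≤ M := by
      refine le_of_tendsto h3 ?_
      filter_upwards [hg.filter_mono hU, (hq.eventually
        (ge_mem_nhds (mul_pos hc0 (pow_pos X.q_pos j)))).filter_mono hU] with k a b
      exact H j k _ b a
    rw [X.lev_eq]
    refine le_of_eq_of_le (Finset.sum_congr rfl fun x _ => Finset.sum_congr rfl fun s _ => ?_) h4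
    change (1 - u (X.π (x * s)) - (1 - u (X.π x))) ^ 2 = _
    ring

end Vale.Agent.P198
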