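import Vale.Agent.P198.G.Main
import Vale.Agent.P198.M.Main

/-! # P198 block R: definitions (frozen; owner helper67) -/

namespace Vale.Agent.P198
open Set Metric Filter Topology MeasureTheory
set_option linter.unusedSectionVars false
variable {G Z : Type} [Group G] [MetricSpace Z] [CompactSpace Z] [MulAction G Z]
  [ContinuousConstSMul G Z]

open Classical in
/-- The points of level `k` that project into `W`. -/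
noncomputable def GP.ov (X : GP G Z) (k : ℕ) (W : Set Z) : Finset G :=
  (X.S k).filter fun x => X.π x ∈ W

theorem GP.mem_ov (X : GP G Z) {k : ℕ} {W : Set Z} {x : G} :
    x ∈ X.ov k W ↔ X.ν x = k ∧ X.π x ∈ W := by
  simp only [GP.ov, Finset.mem_filter, X.mem_S]

theorem GP.ov_subset (X : GP G Z) (k : ℕ) (W : Set Z) : X.ov k W ⊆ X.S k :=
  fun _ hx => X.mem_S.2 (X.mem_ov.1 hx).1

theorem GP.ov_mono (X : GP G Z) (k : ℕ) {W W' : Set Z} (h : W ⊆ W') : X.ov k W ⊆ X.ov k W' :=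
  fun _ hx => X.mem_ov.2 ⟨(X.mem_ov.1 hx).1, h (X.mem_ov.1 hx).2⟩

theorem GP.ov_univ (X : GP G Z) (k : ℕ) : X.ov k univ = X.S k := by
  ext x
  simp only [X.mem_ov, X.mem_S, mem_univ, and_true]

theorem GP.lev_eq (X : GP G Z) (k R : ℕ) (W : Set Z) (U : G → ℝ) :
    X.lev k R W U = ∑ x ∈ X.ov k W, ∑ s ∈ X.B R, (U (x * s) - U x) ^ 2 := rfl

theorem GP.count_R (X : GP G Z) (κ : ℝ) : ∃ N : ℕ, ∀ (k : ℕ) (ξ : Z),
    (X.ov k (closedBall ξ (κ * X.q ^ k))).card ≤ N := by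
  obtain ⟨N, h⟩ := X.count κ
  refine ⟨N, fun k ξ => le_trans (Finset.card_le_card fun x hx => ?_) (h k ξ)⟩
  exact Finset.mem_filter.2 ⟨X.mem_S.2 (X.mem_ov.1 hx).1, (X.mem_ov.1 hx).2⟩

open Classical in
/-- The points of level `k` whose cell meets `K`. -/
noncomputable def GP.hit (X : GP G Z) (k : ℕ) (K : Set Z) : Finset G :=
  (X.S k).filter fun x => ∃ ξ ∈ K, dist ξ (X.π x) ≤ X.C * X.q ^ k

theorem GP.mem_hit (X : GP G Z) {k : ℕ} {K : Set Z} {x : G} :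
    x ∈ X.hit k K ↔ X.ν x = k ∧ ∃ ξ ∈ K, dist ξ (X.π x) ≤ X.C * X.q ^ k := by
  simp only [GP.hit, Finset.mem_filter, X.mem_S]

/-- `ω` bounds the oscillation of `f` on the `κ`-cells of level `k`. -/
def GP.Maj (X : GP G Z) (k : ℕ) (κ : ℝ) (f : Z → ℝ) (ω : G → ℝ) : Prop :=
  ∀ x, X.ν x = k → ∀ ξ, dist ξ (X.π x) ≤ κ * X.q ^ k → |f ξ - f (X.π x)| ≤ ω x

/-- Bounded modulus of the annuli. -/
def GP.Ann (X : GP G Z) (A : ℝ) : Prop :=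
  ∀ (p : Z) (i k : ℕ), 8 * X.C * X.q ^ k ≤ X.q ^ i → ∃ ρ : G → ℝ, (∀ x, 0 ≤ ρ x) ∧
    (∀ x, ρ x ≠ 0 → X.q ^ i / 4 ≤ dist (X.π x) p ∧ dist (X.π x) p ≤ 3 / 4 * X.q ^ i) ∧
    ∑ x ∈ X.S k, ρ x ^ 2 ≤ A ∧
    ∀ K, Cont K → (∃ ξ ∈ K, dist ξ p ≤ X.q ^ i / 2) → (∃ ξ ∈ K, X.q ^ i ≤ dist ξ p) →
      1 ≤ ∑ x ∈ X.hit k K, ρ x

/-- First Loewner bound for continuous functions. -/
def GP.Core1 (X : GP G Z) : Prop :=
  ∀ M : ℝ, ∃ τ > 0, ∀ (f : C(Z, ℝ)) K₀ K₁ ε t₀ t₁, Cfg f K₀ K₁ ε t₀ t₁ →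
    ∀ p₀ ∈ K₀, ∀ p₁ ∈ K₁, dist p₀ p₁ ≤ τ * ε → ∀ k, X.q ^ k ≤ τ * ε → ∀ ω, X.Maj k X.C f ω →
      M * (t₁ - t₀) ^ 2 ≤ ∑ x ∈ X.ov k (closedBall p₀ ε), ω x ^ 2

/-- Second Loewner bound for continuous functions. -/
def GP.Core2 (X : GP G Z) : Prop :=
  ∀ τ > 0, ∃ c > 0, ∀ (f : C(Z, ℝ)) K₀ K₁ ε t₀ t₁, Cfg f K₀ K₁ ε t₀ t₁ →
    ∀ σ : Set Z, IsPreconnected σ → (σ ∩ K₀).Nonempty → (σ ∩ K₁).Nonempty → τ * diam σ ≤ ε →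
      ∀ k, X.q ^ k ≤ c * ε → ∀ ω, X.Maj k X.C f ω →
        c * (t₁ - t₀) ^ 2 ≤ ∑ x ∈ X.ov k (cthickening ε σ), ω x ^ 2

/-- A monotone condenser function with oscillation energy at most `A` at level `k`. -/
def GP.Good (X : GP G Z) (E F : Set Z) (A : ℝ) (k : ℕ) (g : C(Z, ℝ)) : Prop :=
  Cond E F g ∧ Mon E F g ∧ ∃ ω : G → ℝ, X.Maj k X.C g ω ∧ ∑ x ∈ X.S k, ω x ^ 2 ≤ A

end Vale.Agent.P198
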