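import Vale.Agent.P198.R.Sum

/-! # P198 R/Low (helper names end with `_RLow`)
`R` from `near (3 C) 0`. Given `U`, `F = interp_R k U`, `e x = √(∑ s ∈ B R, (U (x s) - U x) ^ 2)`; `F ξ ∈ [U x - e x, U x + e x]` if `dist ξ (π x) ≤ C q ^ k`, so `Maj k C F (2 e)`.
`|F - f| ≤ 2 δ` once the oscillation of `f` at distance `2 C q ^ k` is `≤ δ` (uniform continuity), so `Cfg F K₀ K₁ ε (t₀ + 2 δ) (t₁ - 2 δ)`. Choose `δ` with `4 δ ≤ t₁ - t₀` and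
`m (t₁ - t₀) ^ 2 - η ≤ m (t₁ - t₀ - 4 δ) ^ 2`; the case `t₀ = t₁` is trivial (`lev ≥ 0`). -/

namespace Vale.Agent.P198
open Set Metric Filter Topology MeasureTheory
set_option linter.unusedSectionVars false
variable {G Z : Type} [Group G] [MetricSpace Z] [CompactSpace Z] [MulAction G Z]
  [ContinuousConstSMul G Z]

theorem delta_RLow {m T η : ℝ} (hT : 0 < T) (hη : 0 < η) :
    ∃ δ : ℝ, 0 < δ ∧ 4 * δ ≤ T ∧ m * T ^ 2 - η ≤ m * (T - 4 * δ) ^ 2 := by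
  have c1 : Continuous fun δ : ℝ => m * (T - 4 * δ) ^ 2 := by fun_prop
  have c2 : Continuous fun δ : ℝ => 4 * δ := by fun_prop
  have h1 : ∀ᶠ δ in 𝓝 (0 : ℝ), m * T ^ 2 - η < m * (T - 4 * δ) ^ 2 :=
    c1.continuousAt.eventually (lt_mem_nhds (by simpa using hη))
  have h2 : ∀ᶠ δ in 𝓝 (0 : ℝ), 4 * δ < T :=
    c2.continuousAt.eventually (gt_mem_nhds (by simpa using hT))
  obtain ⟨δ, ⟨h3, h4⟩, h5⟩ := (((h1.and h2).filter_mono nhdsWithin_le_nhds).and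
    (self_mem_nhdsWithin (s := Ioi (0 : ℝ)))).exists
  exact ⟨δ, h5, h4.le, h3.le⟩

theorem maj_RLow (X : GP G Z) {R k : ℕ} (hR : ∀ x y : G, X.ν x = k → X.ν y = k →
      dist (X.π x) (X.π y) ≤ 3 * X.C * X.q ^ k → X.ν (x⁻¹ * y) ≤ R) (U : G → ℝ) {F : Z → ℝ}
    (hF : ∀ (ξ : Z) (a b : ℝ), (∀ y, X.ν y = k → dist ξ (X.π y) ≤ 2 * X.C * X.q ^ k →
      a ≤ U y ∧ U y ≤ b) → a ≤ F ξ ∧ F ξ ≤ b) :
    X.Maj k X.C F fun x => 2 * √(∑ s ∈ X.B R, (U (x * s) - U x) ^ 2) := by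
  intro x hx
  have key : ∀ ξ, dist ξ (X.π x) ≤ X.C * X.q ^ k →
      U x - √(∑ s ∈ X.B R, (U (x * s) - U x) ^ 2) ≤ F ξ ∧
        F ξ ≤ U x + √(∑ s ∈ X.B R, (U (x * s) - U x) ^ 2) := by
    intro ξ hξ
    refine hF ξ _ _ fun y hy hd => ?_
    have h1 : x⁻¹ * y ∈ X.B R := X.mem_B.2 (hR x y hx hy (by
      have := dist_triangle_left (X.π x) (X.π y) ξ
      linarith))
    have h2 := Finset.single_le_sum (f := fun s => (U (x * s) - U x) ^ 2)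
      (fun s _ => sq_nonneg _) h1
    simp only [mul_inv_cancel_left] at h2
    have h3 := abs_le.1 (Real.abs_le_sqrt h2)
    constructor <;> linarith [h3.1, h3.2]
  intro ξ hξ
  have h1 := key ξ hξ
  have h2 := key (X.π x) (by
    rw [dist_self]
    exact mul_nonneg (zero_le_one.trans X.C_ge) (pow_pos X.q_pos k).le)
  rw [abs_le]
  constructor <;> linarith [h1.1, h1.2, h2.1, h2.2]

theorem GP.low_R (X : GP G Z) : ∃ R : ℕ, ∀ (f : C(Z, ℝ)) K₀ K₁ ε t₀ t₁, Cfg f K₀ K₁ ε t₀ t₁ →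
    ∀ (W : Set Z) (m c : ℝ), 0 < c →
      (∀ (F : C(Z, ℝ)) s₀ s₁, Cfg F K₀ K₁ ε s₀ s₁ → ∀ k, X.q ^ k ≤ c → ∀ ω, X.Maj k X.C F ω →
        4 * m * (s₁ - s₀) ^ 2 ≤ ∑ x ∈ X.ov k W, ω x ^ 2) → X.Low R f W (m * (t₁ - t₀) ^ 2) := by
  obtain ⟨R, hR⟩ := X.near (3 * X.C) 0
  refine ⟨R, fun f K₀ K₁ ε t₀ t₁ hc W m c hc0 h η hη => ?_⟩
  rcases hc.le.eq_or_lt with ht | ht
  · refine ⟨1, one_pos, 0, fun k _ U _ => ?_⟩
    have : 0 ≤ X.lev k R W U :=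
      Finset.sum_nonneg fun _ _ => Finset.sum_nonneg fun _ _ => sq_nonneg _
    rw [ht, sub_self]
    linarith
  obtain ⟨δ, hδ, h1, h2⟩ := delta_RLow (m := m) (sub_pos.2 ht) hη
  obtain ⟨β, hβ, hf⟩ := Metric.uniformContinuous_iff.1
    (CompactSpace.uniformContinuous_of_continuous f.continuous) δ hδ
  have hq := tendsto_pow_atTop_nhds_zero_of_lt_one X.q_pos.le X.q_lt
  have hq2 := hq.const_mul (2 * X.C)
  rw [mul_zero] at hq2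
  obtain ⟨k₀, hk₀⟩ := eventually_atTop.1 ((hq.eventually_lt_const hc0).and
    (hq2.eventually_lt_const hβ))
  refine ⟨δ, hδ, k₀, fun k hk U hU => ?_⟩
  obtain ⟨h3, h4⟩ := hk₀ k hk
  obtain ⟨F, hF⟩ := X.interp_R k U
  have h5 : ∀ ξ, f ξ - 2 * δ ≤ F ξ ∧ F ξ ≤ f ξ + 2 * δ := by
    intro ξ
    refine hF ξ _ _ fun y hy hd => ?_
    have a1 := abs_le.1 (hU y hy)
    have a2 := hf (hd.trans_lt h4)
    rw [Real.dist_eq, abs_lt] at a2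
    constructor <;> linarith [a1.1, a1.2, a2.1, a2.2]
  have h6 := h F (t₀ + 2 * δ) (t₁ - 2 * δ) ⟨hc.c₀, hc.c₁, hc.pos, hc.d₀, hc.d₁, by linarith,
    fun ξ hξ => by linarith [(h5 ξ).2, hc.f₀ ξ hξ], fun ξ hξ => by linarith [(h5 ξ).1, hc.f₁ ξ hξ]⟩
    k h3.le _ (maj_RLow X (fun x y hx hy hd => hR k x y hx.ge hx.le hy.ge hy.le hd) U hF)
  have h7 : ∑ x ∈ X.ov k W, (2 * √(∑ s ∈ X.B R, (U (x * s) - U x) ^ 2)) ^ 2 =
      4 * X.lev k R W U := by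
    rw [X.lev_eq, Finset.mul_sum]
    refine Finset.sum_congr rfl fun x _ => ?_
    rw [mul_pow, Real.sq_sqrt (Finset.sum_nonneg fun _ _ => sq_nonneg _)]
    norm_num
  rw [h7, show t₁ - 2 * δ - (t₀ + 2 * δ) = t₁ - t₀ - 4 * δ by ring] at h6
  linarith

end Vale.Agent.P198
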