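import Vale.Agent.P198.R.Ann
import Vale.Agent.P198.R.Core1
import Vale.Agent.P198.R.Core2
import Vale.Agent.P198.R.Low
import Vale.Agent.P198.R.Cut

/-! # P198 block R: Loewner bounds and cutoffs (interface) -/

namespace Vale.Agent.P198
open Set Metric Filter Topology MeasureTheory
variable {G Z : Type} [Group G] [MetricSpace Z] [CompactSpace Z] [MulAction G Z]
  [ContinuousConstSMul G Z]

theorem GP.ro (X : GP G Z) (h : X.BM) : ∃ R, X.RO R := by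
  obtain ⟨A, hA, ha⟩ := X.ann_R h
  have h1 := X.core1_R hA ha
  have h2 := X.core2_R hA ha
  obtain ⟨R, hR⟩ := X.low_R
  refine ⟨R, fun M => ?_, fun τ hτ => ?_, fun p r hr => X.cut_R ha h1 h2 R p hr⟩
  · obtain ⟨τ, hτ, H⟩ := h1 (4 * M)
    exact ⟨τ, hτ, fun f K₀ K₁ ε t₀ t₁ hc p₀ m₀ p₁ m₁ hd =>
      hR f K₀ K₁ ε t₀ t₁ hc _ M (τ * ε) (mul_pos hτ hc.pos) fun F s₀ s₁ hF k hk ω hω =>
        H F K₀ K₁ ε s₀ s₁ hF p₀ m₀ p₁ m₁ hd k hk ω hω⟩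
  · obtain ⟨c, hc0, H⟩ := h2 τ hτ
    refine ⟨c / 4, by positivity, fun f K₀ K₁ ε t₀ t₁ hc σ hσ m₀ m₁ hd =>
      hR f K₀ K₁ ε t₀ t₁ hc _ (c / 4) (c * ε) (mul_pos hc0 hc.pos) fun F s₀ s₁ hF k hk ω hω => ?_⟩
    have e : 4 * (c / 4) = c := by ring
    rw [e]
    exact H F K₀ K₁ ε s₀ s₁ hF σ hσ m₀ m₁ hd k hk ω hω

end Vale.Agent.P198
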