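import Vale.Agent.P198.R.Top
import Vale.Agent.P198.R.Sum

/-! # P198 R/Pre (helper names end with `_RPre`)
`pre_R`: `Λ` from `path_R`, `θ = 1 / (32 Λ)`, `ρ` from `Ann`, `w K = ∑ x ∈ hit k K, ρ x` (subadditive for unions), `V ξ = sInf {w K | Cont K, p ∈ K, ξ ∈ K}`.
`V ξ' ≤ V ξ + ∑ y ∈ ov k (closedBall ξ (Λ dist ξ ξ' + C q ^ k)), ρ y` (add the path); `V = 0` on `closedBall p (q ^ i / (16 Λ))` (support of `ρ`, `C q ^ k ≤ q ^ i / 8`), `V ≥ 1` where `dist ≥ q ^ i`.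
`U x = min 1 (V (π x))`, `f = interp_R k U`, `ω x = 2 ∑ y ∈ ov k (closedBall (π x) (κ' q ^ k)), ρ y` with `κ' = (Λ + 1) (κ + 2 C) + C` (both directions), `schur_R`, `count_R`.
`good_R`: `F, δ` from `outer_R`, `i` with `2 q ^ i ≤ δ`, `E` from `inner_R` at `θ q ^ i`, `pre_R` with `κ = Λ C`, `monot`, `path_R` gives `Maj k C g (2 ω)`. -/

namespace Vale.Agent.P198
open Set Metric Filter Topology MeasureTheory
set_option linter.unusedSectionVars false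
variable {G Z : Type} [Group G] [MetricSpace Z] [CompactSpace Z] [MulAction G Z]
  [ContinuousConstSMul G Z]

theorem GP.union_RPre (X : GP G Z) (k : ℕ) {ρ : G → ℝ} (h0 : ∀ x, 0 ≤ ρ x) (K L : Set Z) :
    ∑ x ∈ X.hit k (K ∪ L), ρ x ≤ ∑ x ∈ X.hit k K, ρ x + ∑ x ∈ X.hit k L, ρ x := by
  classical
  have h1 : X.hit k (K ∪ L) ⊆ X.hit k K ∪ X.hit k L := by
    intro x hx
    obtain ⟨h1, ξ, h2 | h2, h3⟩ := X.mem_hit.1 hx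
    · exact Finset.mem_union_left _ (X.mem_hit.2 ⟨h1, ξ, h2, h3⟩)
    · exact Finset.mem_union_right _ (X.mem_hit.2 ⟨h1, ξ, h2, h3⟩)
  refine (Finset.sum_le_sum_of_subset_of_nonneg h1 fun x _ _ => h0 x).trans ?_
  rw [← Finset.sum_union_inter]
  exact le_add_of_nonneg_right (Finset.sum_nonneg fun x _ => h0 x)

theorem GP.hit_RPre (X : GP G Z) (k : ℕ) {K : Set Z} {ξ : Z} {r : ℝ} (h : K ⊆ closedBall ξ r) :
    X.hit k K ⊆ X.ov k (closedBall ξ (r + X.C * X.q ^ k)) := by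
  intro x hx
  obtain ⟨h1, ζ, h2, h3⟩ := X.mem_hit.1 hx
  refine X.mem_ov.2 ⟨h1, ?_⟩
  have h4 := mem_closedBall.1 (h h2)
  rw [mem_closedBall]
  linarith [dist_triangle_left (X.π x) ξ ζ]

theorem GP.pot_RPre (X : GP G Z) (k : ℕ) {ρ : G → ℝ} (h0 : ∀ x, 0 ≤ ρ x) (p : Z) {Λ : ℝ}
    (hΛ : ∀ ξ ζ : Z, ∃ σ, Cont σ ∧ ξ ∈ σ ∧ ζ ∈ σ ∧ σ ⊆ closedBall ξ (Λ * dist ξ ζ)) :
    ∃ V : Z → ℝ, (∀ ξ K, Cont K → p ∈ K → ξ ∈ K → V ξ ≤ ∑ x ∈ X.hit k K, ρ x) ∧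
      (∀ ξ c, (∀ K, Cont K → p ∈ K → ξ ∈ K → c ≤ ∑ x ∈ X.hit k K, ρ x) → c ≤ V ξ) ∧
      ∀ ξ ξ', V ξ' ≤ V ξ + ∑ y ∈ X.ov k (closedBall ξ (Λ * dist ξ ξ' + X.C * X.q ^ k)), ρ y := by
  set V : Z → ℝ := fun ξ => sInf {a | ∃ K, Cont K ∧ p ∈ K ∧ ξ ∈ K ∧ a = ∑ x ∈ X.hit k K, ρ x}
    with hV
  have h1 : ∀ ξ K, Cont K → p ∈ K → ξ ∈ K → V ξ ≤ ∑ x ∈ X.hit k K, ρ x := by
    intro ξ K a b c
    refine csInf_le ⟨0, ?_⟩ ⟨K, a, b, c, rfl⟩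
    rintro _ ⟨K', -, -, -, rfl⟩
    exact Finset.sum_nonneg fun x _ => h0 x
  have h2 : ∀ ξ c, (∀ K, Cont K → p ∈ K → ξ ∈ K → c ≤ ∑ x ∈ X.hit k K, ρ x) → c ≤ V ξ := by
    intro ξ c h
    obtain ⟨σ, a1, a2, a3, -⟩ := hΛ p ξ
    refine le_csInf ⟨_, σ, a1, a2, a3, rfl⟩ ?_
    rintro _ ⟨K, b1, b2, b3, rfl⟩
    exact h K b1 b2 b3
  refine ⟨V, h1, h2, fun ξ ξ' => ?_⟩
  rw [← sub_le_iff_le_add]
  refine h2 ξ _ fun K b1 b2 b3 => ?_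
  obtain ⟨σ, a1, a2, a3, a4⟩ := hΛ ξ ξ'
  have c1 : Cont (K ∪ σ) := ⟨b1.1.union a1.1, IsConnected.union ⟨ξ, b3, a2⟩ b1.2 a1.2⟩
  have c2 := h1 ξ' _ c1 (Or.inl b2) (Or.inr a3)
  have c3 := X.union_RPre k h0 K σ
  have c4 := Finset.sum_le_sum_of_subset_of_nonneg (X.hit_RPre k a4) fun x _ _ => h0 x
  linarith

theorem min_RPre {a b T : ℝ} (hT : 0 ≤ T) (h : a ≤ b + T) : min 1 a ≤ min 1 b + T := by
  rcases le_total 1 b with h1 | h1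
  · rw [min_eq_left h1]
    linarith [min_le_left 1 a]
  · rw [min_eq_right h1]
    linarith [min_le_right 1 a]

theorem GP.osc_RPre (X : GP G Z) (k : ℕ) {ρ : G → ℝ} (h0 : ∀ x, 0 ≤ ρ x) {Λ : ℝ} (hΛ : 1 ≤ Λ)
    {V : Z → ℝ} (hV : ∀ ξ ξ', V ξ' ≤ V ξ +
      ∑ y ∈ X.ov k (closedBall ξ (Λ * dist ξ ξ' + X.C * X.q ^ k)), ρ y)
    {m : ℝ} {ξ ζ : Z} (h : dist ξ ζ ≤ m * X.q ^ k) :
    min 1 (V ξ) - ∑ y ∈ X.ov k (closedBall ξ (((Λ + 1) * m + X.C) * X.q ^ k)), ρ y ≤ min 1 (V ζ) ∧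
    min 1 (V ζ) ≤ min 1 (V ξ) +
      ∑ y ∈ X.ov k (closedBall ξ (((Λ + 1) * m + X.C) * X.q ^ k)), ρ y := by
  have a1 : Λ * dist ξ ζ ≤ Λ * (m * X.q ^ k) := mul_le_mul_of_nonneg_left h (by linarith)
  have a2 : 0 ≤ dist ξ ζ := dist_nonneg
  have a3 : ((Λ + 1) * m + X.C) * X.q ^ k =
    Λ * (m * X.q ^ k) + m * X.q ^ k + X.C * X.q ^ k := by ring
  have hT := Finset.sum_nonneg (s := X.ov k (closedBall ξ (((Λ + 1) * m + X.C) * X.q ^ k)))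
    fun x _ => h0 x
  constructor
  · rw [sub_le_iff_le_add]
    refine min_RPre hT ((hV ζ ξ).trans (add_le_add_right ?_ _))
    refine Finset.sum_le_sum_of_subset_of_nonneg (X.ov_mono k ?_) fun x _ _ => h0 x
    refine closedBall_subset_closedBall' ?_
    rw [dist_comm ζ ξ]
    linarith
  · refine min_RPre hT ((hV ξ ζ).trans (add_le_add_right ?_ _))
    refine Finset.sum_le_sum_of_subset_of_nonneg (X.ov_mono k ?_) fun x _ _ => h0 x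
    exact closedBall_subset_closedBall (by linarith)

theorem GP.schur_RPre (X : GP G Z) (κ : ℝ) : ∃ N : ℝ, 0 ≤ N ∧ ∀ (k : ℕ) (ρ : G → ℝ),
    ∑ x ∈ X.S k, (2 * ∑ y ∈ X.ov k (closedBall (X.π x) (κ * X.q ^ k)), ρ y) ^ 2 ≤
      N * ∑ x ∈ X.S k, ρ x ^ 2 := by
  obtain ⟨N, hN⟩ := X.count_R κ
  refine ⟨4 * (N * N), by positivity, fun k ρ => ?_⟩
  have h := schur_R (X.S k) (X.S k) (fun x => X.ov k (closedBall (X.π x) (κ * X.q ^ k)))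
    (fun x _ => X.ov_subset k _) (fun x _ => hN k (X.π x))
    (fun b _ => ⟨_, hN k (X.π b), fun a ha hb => X.mem_ov.2 ⟨X.mem_S.1 ha, by
      rw [mem_closedBall, dist_comm]
      exact (X.mem_ov.1 hb).2⟩⟩) ρ
  simp only [mul_pow, ← Finset.mul_sum]
  linarith

theorem GP.ev_RPre (X : GP G Z) (D : ℝ) {a : ℝ} (ha : 0 < a) :
    ∀ᶠ k : ℕ in atTop, D * X.q ^ k ≤ a := by
  have h := (tendsto_pow_atTop_nhds_zero_of_lt_one X.q_pos.le X.q_lt).const_mul D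
  rw [mul_zero] at h
  exact h.eventually (ge_mem_nhds ha)

theorem GP.pre_R (X : GP G Z) {A : ℝ} (h : X.Ann A) {κ : ℝ} (hκ : 0 ≤ κ) : ∃ θ > (0 : ℝ), ∃ A' : ℝ,
    ∀ (p : Z) (i : ℕ), ∀ᶠ k in atTop, ∃ (f : C(Z, ℝ)) (ω : G → ℝ), (∀ ξ, 0 ≤ f ξ ∧ f ξ ≤ 1) ∧
      (∀ ξ, dist ξ p ≤ θ * X.q ^ i → f ξ = 0) ∧ (∀ ξ, 2 * X.q ^ i ≤ dist ξ p → f ξ = 1) ∧
      X.Maj k κ f ω ∧ ∑ x ∈ X.S k, ω x ^ 2 ≤ A' := by
  obtain ⟨Λ, hΛ1, hΛ⟩ := X.path_R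
  obtain ⟨N, hN0, hN⟩ := X.schur_RPre ((Λ + 1) * (κ + 2 * X.C) + X.C)
  have hΛ0 : 0 < Λ := by linarith
  refine ⟨1 / (32 * Λ), by positivity, N * A, fun p i => ?_⟩
  have hQ : 0 < X.q ^ i := pow_pos X.q_pos i
  filter_upwards [X.ev_RPre (8 * X.C) hQ,
    X.ev_RPre (2 * X.C) (a := 1 / (32 * Λ) * X.q ^ i) (by positivity)] with k hk1 hk2
  have hs : 0 < X.q ^ k := pow_pos X.q_pos k
  have hCs : 0 < X.C * X.q ^ k := mul_pos X.C_pos hs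
  obtain ⟨ρ, h0, hsup, hA, hadm⟩ := h p i k hk1
  obtain ⟨V, hV1, hV2, hV3⟩ := X.pot_RPre k h0 p hΛ
  obtain ⟨f, hf⟩ := X.interp_R k fun x => min 1 (V (X.π x))
  have hV0 : ∀ ξ, 0 ≤ V ξ := fun ξ => hV2 ξ 0 fun K _ _ _ => Finset.sum_nonneg fun x _ => h0 x
  have hz : ∀ ξ, dist ξ p ≤ 2 * (1 / (32 * Λ) * X.q ^ i) → V ξ ≤ 0 := by
    intro ξ hξ
    obtain ⟨σ, a1, a2, a3, a4⟩ := hΛ p ξ
    refine (hV1 ξ σ a1 a2 a3).trans (Finset.sum_eq_zero fun x hx => ?_).le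
    by_contra hne
    have b1 := (hsup x hne).1
    have b2 := mem_closedBall.1 (X.mem_ov.1 (X.hit_RPre k a4 hx)).2
    have b3 : Λ * dist p ξ ≤ Λ * (2 * (1 / (32 * Λ) * X.q ^ i)) :=
      mul_le_mul_of_nonneg_left (by rwa [dist_comm]) hΛ0.le
    have b4 : Λ * (2 * (1 / (32 * Λ) * X.q ^ i)) = X.q ^ i / 16 := by
      field_simp
      ring
    linarith
  have ho : ∀ ξ, X.q ^ i ≤ dist ξ p → 1 ≤ V ξ := fun ξ hξ => hV2 ξ 1 fun K a1 a2 a3 =>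
    hadm K a1 ⟨p, a2, by rw [dist_self]; positivity⟩ ⟨ξ, a3, hξ⟩
  refine ⟨f, fun x => 2 * ∑ y ∈ X.ov k (closedBall (X.π x)
    (((Λ + 1) * (κ + 2 * X.C) + X.C) * X.q ^ k)), ρ y, fun ξ => ?_, fun ξ hξ => ?_,
    fun ξ hξ => ?_, fun x hx ξ hξ => ?_, (hN k ρ).trans (mul_le_mul_of_nonneg_left hA hN0)⟩
  · exact hf ξ 0 1 fun y _ _ => ⟨le_min zero_le_one (hV0 _), min_le_left _ _⟩
  · have := hf ξ 0 0 fun y _ hy => ⟨le_min zero_le_one (hV0 _), (min_le_right _ _).trans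
      (hz _ (by linarith [dist_triangle_left (X.π y) p ξ]))⟩
    exact le_antisymm this.2 this.1
  · have := hf ξ 1 1 fun y _ hy => ⟨le_min le_rfl
      (ho _ (by linarith [dist_triangle ξ (X.π y) p])), min_le_left _ _⟩
    exact le_antisymm this.2 this.1
  · have e : (κ + 2 * X.C) * X.q ^ k = κ * X.q ^ k + 2 * X.C * X.q ^ k := by ring
    have hκs : 0 ≤ κ * X.q ^ k := mul_nonneg hκ hs.le
    have a1 := hf ξ _ _ fun y _ hy => X.osc_RPre k h0 hΛ1 hV3 (m := κ + 2 * X.C)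
      (ξ := X.π x) (ζ := X.π y) (by linarith [dist_triangle_left (X.π x) (X.π y) ξ])
    have a2 := hf (X.π x) _ _ fun y _ hy => X.osc_RPre k h0 hΛ1 hV3 (m := κ + 2 * X.C)
      (ξ := X.π x) (ζ := X.π y) (by linarith)
    rw [abs_le]
    constructor <;> linarith [a1.1, a1.2, a2.1, a2.2]

theorem GP.good_R (X : GP G Z) {A : ℝ} (h : X.Ann A) (p : Z) {r : ℝ} (hr : 0 < r) :
    ∃ E F, Cont E ∧ Cont F ∧ 0 < diam E ∧ 0 < diam F ∧ E ∈ 𝓝 p ∧ (∀ ξ, r ≤ dist ξ p → ξ ∈ F) ∧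
      ∃ A' : ℝ, ∀ᶠ k in atTop, ∃ g, X.Good E F A' k g := by
  obtain ⟨Λ, hΛ1, hΛ⟩ := X.path_R
  obtain ⟨F, hF, hF0, hFr, δ, hδ, hFδ⟩ := X.outer_R p hr
  obtain ⟨i, hi⟩ := exists_pow_lt_of_lt_one (half_pos hδ) X.q_lt
  obtain ⟨θ, hθ, A', hA'⟩ := X.pre_R h (κ := Λ * X.C) (mul_nonneg (by linarith) X.C_pos.le)
  obtain ⟨E, hE, hE0, hEp, hEr⟩ := X.inner_R p (mul_pos hθ (pow_pos X.q_pos i))
  obtain ⟨c1, c2, -⟩ := sph_conn X.sph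
  refine ⟨E, F, hE, hF, hE0, hF0, hEp, hFr, 4 * A', ?_⟩
  filter_upwards [hA' p i] with k hk
  obtain ⟨f, ω, f1, f2, f3, f4, f5⟩ := hk
  have hc : Cond E F f := ⟨f1, fun ξ hξ => f2 ξ (mem_ball.1 (hEr hξ)).le,
    fun ξ hξ => f3 ξ (by linarith [hFδ ξ hξ])⟩
  obtain ⟨-, g, -, -, g1, g2, g3⟩ := monot hE.1.isClosed hF.1.isClosed hE.2.nonempty
    hF.2.nonempty hc
  refine ⟨g, g1, g2, fun x => 2 * ω x, fun x hx ξ hξ => ?_, ?_⟩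
  · obtain ⟨σ, a1, a2, a3, a4⟩ := hΛ (X.π x) ξ
    obtain ⟨ξ', b1, ζ', b2, b3⟩ := g3 σ a1.2.isPreconnected ξ a3 _ a2
    have d1 : Λ * dist (X.π x) ξ ≤ Λ * X.C * X.q ^ k := by
      rw [mul_assoc, dist_comm]
      exact mul_le_mul_of_nonneg_left hξ (by linarith)
    have d2 := abs_le.1 (f4 x hx ξ' ((mem_closedBall.1 (a4 b1)).trans d1))
    have d3 := abs_le.1 (f4 x hx ζ' ((mem_closedBall.1 (a4 b2)).trans d1))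
    refine b3.trans (abs_le.2 ⟨?_, ?_⟩) <;> linarith [d2.1, d2.2, d3.1, d3.2]
  · simp only [mul_pow, ← Finset.mul_sum]
    linarith

end Vale.Agent.P198
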