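import Vale.Agent.P198.R.Defs

/-! # P198 R/Top (helper names end with `_RTop`)
`joined_R`: `connectedComponentIn U a` is open, connected, hence path connected, and contains `K`.
`level_R`: `c = 1 / (4 Λ)` with `Λ` from `llc2`; `a ∈ σ ∩ K₀`, `b ∈ σ ∩ K₁` are not joined off `Y = {f = t}` (intermediate value); `sph_unicoh` gives a component `L`
(closed, so compact) with `¬ JoinedIn Lᶜ a b`. If `L` misses `σ`, `joined_R`. If `L ⊆ ball p (c ε)`: `K₀`, `K₁` have points `a'`, `b'` at distance `≥ ε / 4` from `p`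
(else `diam ≤ ε / 2`), join `a, a', b', b` in `Lᶜ` (`joined_R`, `llc2`). `mon_cfg_R`: `K₀ ∪ E`, `K₁ ∪ F`. `path_R`: range of the path of `llc1`.
`inner_R`: the disc `D` of `sph_small`; `outer_R`: `closure Dᶜ`. Nonempty open sets are infinite (`sph_conn`, `infinite_of_mem_nhds`), `Metric.diam_pos`. -/

namespace Vale.Agent.P198
open Set Metric Filter Topology MeasureTheory
set_option linter.unusedSectionVars false
variable {G Z : Type} [Group G] [MetricSpace Z] [CompactSpace Z] [MulAction G Z]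
  [ContinuousConstSMul G Z]

theorem joined_R {Y : Type} [TopologicalSpace Y] [LocallyPathConnectedSpace Y] {K U : Set Y}
    (hK : IsPreconnected K) (hU : IsOpen U) (h : K ⊆ U) {a b : Y} (ha : a ∈ K) (hb : b ∈ K) :
    JoinedIn U a b := by
  have ho : IsOpen (connectedComponentIn U a) := hU.connectedComponentIn
  have hc : IsConnected (connectedComponentIn U a) :=
    isConnected_connectedComponentIn_iff.2 (h ha)
  have hp : IsPathConnected (connectedComponentIn U a) := ho.isConnected_iff_isPathConnected.1 hc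
  have hs : K ⊆ connectedComponentIn U a := hK.subset_connectedComponentIn ha h
  exact (hp.joinedIn a (hs ha) b (hs hb)).mono (connectedComponentIn_subset U a)

theorem far_RTop {K : Set Z} {ε : ℝ} (hε : 0 < ε) (h : ε ≤ diam K) (p : Z) :
    ∃ a ∈ K, ε / 4 ≤ dist a p := by
  by_contra hn
  push Not at hn
  have h1 : diam K ≤ ε / 2 := by
    refine diam_le_of_forall_dist_le (by positivity) fun x hx y hy => ?_
    have := hn x hx
    have := hn y hy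
    have := dist_triangle_right x y p
    linarith
  linarith

theorem diam_RTop (hZ : Nonempty (Z ≃ₜ S2)) {K : Set Z} {p : Z} (h : K ∈ 𝓝 p) : 0 < diam K := by
  obtain ⟨h1, -, h3⟩ := sph_conn hZ
  exact diam_pos (infinite_of_mem_nhds p h).nontrivial isBounded_of_compactSpace

theorem GP.level_R (X : GP G Z) : ∃ c > (0 : ℝ), c ≤ 1 / 4 ∧ ∀ (f : C(Z, ℝ)) K₀ K₁ ε t₀ t₁,
    Cfg f K₀ K₁ ε t₀ t₁ → ∀ σ : Set Z, IsPreconnected σ → (σ ∩ K₀).Nonempty → (σ ∩ K₁).Nonempty →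
      ∀ t ∈ Ioo t₀ t₁, ∃ L, Cont L ∧ (∀ ξ ∈ L, f ξ = t) ∧ (L ∩ σ).Nonempty ∧
        ∀ p, ∃ ζ ∈ L, c * ε ≤ dist ζ p := by
  obtain ⟨Λ, hΛ, hl⟩ := X.llc2
  obtain ⟨-, h2, -⟩ := sph_conn X.sph
  have hΛ0 : 0 < Λ := by linarith
  refine ⟨1 / (4 * Λ), by positivity, ?_, ?_⟩
  · rw [div_le_div_iff₀ (by positivity) (by positivity)]
    linarith
  rintro f K₀ K₁ ε t₀ t₁ hc σ hσ ⟨a, haσ, ha⟩ ⟨b, hbσ, hb⟩ t ⟨ht0, ht1⟩
  set Y : Set Z := {ξ | f ξ = t} with hY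
  have hYc : IsClosed Y := isClosed_eq f.continuous continuous_const
  have h0 : ∀ ξ ∈ K₀, ξ ∉ Y := fun ξ hξ h => by
    have h1 : f ξ = t := h
    have := hc.f₀ ξ hξ
    linarith
  have h1 : ∀ ξ ∈ K₁, ξ ∉ Y := fun ξ hξ h => by
    have h1 : f ξ = t := h
    have := hc.f₁ ξ hξ
    linarith
  have hn : ¬ JoinedIn Yᶜ a b := by
    rintro ⟨γ, hγ⟩
    have hm : t ∈ Icc (f (γ 0)) (f (γ 1)) := by
      rw [γ.source, γ.target]
      have := hc.f₀ a ha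
      have := hc.f₁ b hb
      constructor <;> linarith
    obtain ⟨s, hs⟩ := intermediate_value_univ (0 : unitInterval) 1
      (f.continuous.comp γ.continuous) hm
    exact hγ s hs
  obtain ⟨x, hx, hL⟩ := sph_unicoh X.sph hYc (h0 a ha) (h1 b hb) hn
  have hLc : IsClosed (connectedComponentIn Y x) := log_closed_comp hYc x
  have hLY : connectedComponentIn Y x ⊆ Y := connectedComponentIn_subset Y x
  refine ⟨connectedComponentIn Y x, ⟨hLc.isCompact, isConnected_connectedComponentIn_iff.2 hx⟩,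
    fun ξ hξ => hLY hξ, ?_, fun p => ?_⟩
  · by_contra he
    refine hL (joined_R hσ hLc.isOpen_compl (fun ξ hξ h => he ⟨ξ, h, hξ⟩) haσ hbσ)
  · by_contra he
    push Not at he
    obtain ⟨a', ha', da⟩ := far_RTop hc.pos hc.d₀ p
    obtain ⟨b', hb', db⟩ := far_RTop hc.pos hc.d₁ p
    have hε := hc.pos
    have e : Λ * (1 / (4 * Λ) * ε) = ε / 4 := by field_simp
    have j1 : JoinedIn (connectedComponentIn Y x)ᶜ a a' :=
      joined_R hc.c₀.2.isPreconnected hLc.isOpen_compl (fun ξ hξ h => h0 ξ hξ (hLY h)) ha ha'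
    have j3 : JoinedIn (connectedComponentIn Y x)ᶜ b' b :=
      joined_R hc.c₁.2.isPreconnected hLc.isOpen_compl (fun ξ hξ h => h1 ξ hξ (hLY h)) hb' hb
    have j2 : JoinedIn (connectedComponentIn Y x)ᶜ a' b' :=
      (hl p a' b' (1 / (4 * Λ) * ε) (by positivity) (e ▸ da) (e ▸ db)).mono
        (compl_subset_compl.2 fun ξ hξ => he ξ hξ)
    exact hL ((j1.trans j2).trans j3)

theorem mon_cfg_R {E F : Set Z} {g : Z → ℝ} (hE : Cont E) (hF : Cont F) (hc : Cond E F g)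
    (hm : Mon E F g) {ε : ℝ} (hε : 0 < ε) (h1 : ε ≤ diam E) (h2 : ε ≤ diam F) {ξ ζ : Z}
    (h : g ξ ≤ g ζ) : ∃ K₀ K₁, ξ ∈ K₀ ∧ ζ ∈ K₁ ∧ Cfg g K₀ K₁ ε (g ξ) (g ζ) := by
  obtain ⟨K, hK, hξ, hKE, hg⟩ := (hm ξ).2
  obtain ⟨K', hK', hζ, hKF, hg'⟩ := (hm ζ).1
  refine ⟨K ∪ E, K' ∪ F, Or.inl hξ, Or.inl hζ, ⟨hK.1.union hE.1, hK.2.union hKE hE.2⟩,
    ⟨hK'.1.union hF.1, hK'.2.union hKF hF.2⟩, hε,
    h1.trans (diam_mono subset_union_right isBounded_of_compactSpace),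
    h2.trans (diam_mono subset_union_right isBounded_of_compactSpace), h, ?_, ?_⟩
  · rintro z (hz | hz)
    · exact hg z hz
    · rw [hc.2.1 z hz]
      exact (hc.1 ξ).1
  · rintro z (hz | hz)
    · exact hg' z hz
    · rw [hc.2.2 z hz]
      exact (hc.1 ζ).2

theorem GP.path_R (X : GP G Z) : ∃ Λ ≥ (1 : ℝ), ∀ ξ ζ : Z, ∃ σ, Cont σ ∧ ξ ∈ σ ∧ ζ ∈ σ ∧
    σ ⊆ closedBall ξ (Λ * dist ξ ζ) := by
  obtain ⟨Λ, hΛ, hl⟩ := X.llc1
  refine ⟨Λ, hΛ, fun ξ ζ => ?_⟩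
  obtain ⟨γ, hγ⟩ := hl ξ ζ
  refine ⟨range γ, ⟨isCompact_range γ.continuous, isConnected_range γ.continuous⟩,
    ⟨0, γ.source⟩, ⟨1, γ.target⟩, ?_⟩
  rintro _ ⟨s, rfl⟩
  exact hγ s

theorem GP.inner_R (X : GP G Z) (p : Z) {r : ℝ} (hr : 0 < r) :
    ∃ E, Cont E ∧ 0 < diam E ∧ E ∈ 𝓝 p ∧ E ⊆ ball p r := by
  obtain ⟨δ, hδ, h⟩ := sph_small X.sph hr
  obtain ⟨D, h1, h2, h3, h4, -⟩ := h p
  have hn : D ∈ 𝓝 p := mem_of_superset (ball_mem_nhds p hδ) h1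
  exact ⟨D, ⟨h3.isCompact, h4.isConnected⟩, diam_RTop X.sph hn, hn, h2⟩

theorem GP.outer_R (X : GP G Z) (p : Z) {r : ℝ} (hr : 0 < r) : ∃ F, Cont F ∧ 0 < diam F ∧
    (∀ ξ, r ≤ dist ξ p → ξ ∈ F) ∧ ∃ δ > 0, ∀ ξ ∈ F, δ ≤ dist ξ p := by
  obtain ⟨δ, hδ, h⟩ := sph_small X.sph hr
  obtain ⟨D, h1, h2, h3, -, h5⟩ := h p
  obtain ⟨z, hz⟩ := h5.nonempty
  refine ⟨closure Dᶜ, ⟨isClosed_closure.isCompact, h5.isConnected.closure⟩,
    diam_RTop X.sph (mem_of_superset (h3.isOpen_compl.mem_nhds hz) subset_closure),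
    fun ξ hξ => subset_closure fun hD => absurd (h2 hD) (not_lt.2 hξ), δ, hδ, fun ξ hξ => ?_⟩
  have h6 : closure Dᶜ ⊆ (ball p δ)ᶜ :=
    closure_minimal (compl_subset_compl.2 h1) isOpen_ball.isClosed_compl
  exact not_lt.1 (h6 hξ)

end Vale.Agent.P198
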